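import Vale.Agent.P253.Calc

/-!
The a priori estimate. Put `P w = star (t w) ⬝ᵥ (m1 K w *ᵥ t w + K w *ᵥ vd1 t w)` and
`Q w = hf (K w) (t w) (vd2 t w)`. Both vanish off `tsupport t` and are smooth on `U`, hence smooth on
`ℂ` with compact support (`contDiff_of_tsupport` style: at points of `U` use `U ∈ 𝓝 z`, off
`tsupport t` they are locally zero). On `U`, expanding with `d1_sum d1_mul d2_sum d2_mul d1_conj
d2_conj d12_comm`: `d2 P z - d1 Q z = hf (m1 (m2 K) z) t t + hf (m1 K z) s t + hf (m2 K z) t s +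
hf (K z) s s - hf (K z) (vd2 t z) (vd2 t z)` with `s = vd1 t z`. Integrate (`int_d1`, `int_d2`),
take real parts, use `Neg`. All integrands are continuous with compact support.
-/

namespace Vale.Agent.P253

open Complex Matrix Metric Set Filter Topology MeasureTheory
open scoped ContDiff ComplexConjugate ComplexOrder ENNReal

variable {n : ℕ}

theorem apr_hf (K : M n) (x y : Fin n → ℂ) :
    hf K x y = ∑ i, ∑ j, conj (x i) * K i j * y j := by
  simp only [hf, dotProduct, mulVec, Finset.mul_sum, Pi.star_apply, mul_assoc, starRingEnd_apply]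

theorem apr_conj {U : Set ℂ} {a : ℂ → ℂ} (ha : ContDiffOn ℝ ∞ a U) :
    ContDiffOn ℝ ∞ (fun w => conj (a w)) U :=
  conjCLE.contDiff.comp_contDiffOn ha

theorem apr_entry {U : Set ℂ} (hU : IsOpen U) {a b k : ℂ → ℂ} (ha : ContDiffOn ℝ ∞ a U)
    (hb : ContDiffOn ℝ ∞ b U) (hk : ContDiffOn ℝ ∞ k U) {z : ℂ} (hz : z ∈ U) :
    d2 (fun w => conj (a w) * (d1 k w * b w + k w * d1 b w)) z -
      d1 (fun w => conj (a w) * (k w * d2 b w)) z =
      conj (a z) * d1 (d2 k) z * b z + conj (d1 a z) * d1 k z * b z +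
        conj (a z) * d2 k z * d1 b z + conj (d1 a z) * k z * d1 b z -
        conj (d2 a z) * k z * d2 b z := by
  have a0 := diffAt hU (apr_conj ha) hz
  have b0 := diffAt hU hb hz
  have k0 := diffAt hU hk hz
  have b1 := diffAt hU (d1_smooth hU hb) hz
  have b2 := diffAt hU (d2_smooth hU hb) hz
  have k1 := diffAt hU (d1_smooth hU hk) hz
  rw [d2_mul a0 ((k1.fun_mul b0).fun_add (k0.fun_mul b1)), d1_mul a0 (k0.fun_mul b2),
    d2_add (k1.fun_mul b0) (k0.fun_mul b1), d2_mul k1 b0, d2_mul k0 b1, d1_mul k0 b2, d1_conj,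
    d2_conj, d12_comm hU hb hz, d12_comm hU hk hz]
  ring

theorem apr_ev {C : Set ℂ} (hC : IsCompact C) {F : ℂ → ℂ} (h0 : ∀ z ∉ C, F z = 0) {z : ℂ}
    (hz : z ∉ C) : F =ᶠ[𝓝 z] fun _ => 0 := by
  filter_upwards [hC.isClosed.isOpen_compl.mem_nhds hz] with w hw using h0 w hw

theorem apr_zero {U C : Set ℂ} (hU : IsOpen U) (hC : IsCompact C) (hs : C ⊆ U) {F : ℂ → ℂ}
    (hF : ContDiffOn ℝ ∞ F U) (h0 : ∀ z ∉ C, F z = 0) :
    (IntegrableOn (d1 F) U ∧ ∫ z in U, d1 F z = 0) ∧
      IntegrableOn (d2 F) U ∧ ∫ z in U, d2 F z = 0 := by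
  have c : ContDiff ℝ 1 F := contDiff_iff_contDiffAt.2 fun z => by
    by_cases hz : z ∈ C
    · exact (hF.contDiffAt (hU.mem_nhds (hs hz))).of_le (by norm_cast)
    · exact contDiffAt_const.congr_of_eventuallyEq (apr_ev hC h0 hz)
  have s : HasCompactSupport F := HasCompactSupport.intro hC h0
  refine ⟨⟨(int_d1 c s).1.integrableOn, ?_⟩, (int_d2 c s).1.integrableOn, ?_⟩
  · rw [setIntegral_eq_integral_of_forall_compl_eq_zero fun z hz =>
      (d1_congr (apr_ev hC h0 fun h => hz (hs h))).trans (d1_const 0), (int_d1 c s).2]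
  · rw [setIntegral_eq_integral_of_forall_compl_eq_zero fun z hz =>
      (d2_congr (apr_ev hC h0 fun h => hz (hs h))).trans (d2_const 0), (int_d2 c s).2]

theorem apr_int {U C : Set ℂ} (hU : IsOpen U) (hC : IsCompact C) (hs : C ⊆ U) {F : ℂ → ℝ}
    (hF : ContinuousOn F U) (h0 : ∀ z ∉ C, F z = 0) : IntegrableOn F U :=
  ((hF.mono hs).integrableOn_compact hC).of_forall_sdiff_eq_zero hU.measurableSet
    fun z hz => h0 z hz.2

theorem apr_cont {U : Set ℂ} {K : ℂ → M n} (h : Sm U K) {x : ℂ → Fin n → ℂ}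
    (hx : ∀ i, ContDiffOn ℝ ∞ (fun z => x z i) U) :
    ContinuousOn (fun z => (hf (K z) (x z) (x z)).re) U := by
  refine continuous_re.comp_continuousOn ?_
  simp only [apr_hf]
  exact continuousOn_finsetSum _ fun i _ => continuousOn_finsetSum _ fun j _ =>
    (((apr_conj (hx i)).mul (h.smooth i j)).mul (hx j)).continuousOn

theorem apriori {U : Set ℂ} (hU : IsOpen U) {K : ℂ → M n} (h : Sm U K) {l : ℂ → ℝ}
    (hn : Neg U K l) (hl : ContinuousOn l U) {t : ℂ → Fin n → ℂ} (ht : Tst U t) :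
    ∫ z in U, l z * (hf (K z) (t z) (t z)).re ≤
      ∫ z in U, (hf (K z) (vd2 t z) (vd2 t z)).re := by
  have hC : IsCompact (tsupport t) := ht.cpt.isCompact
  have t0 : ∀ i, ∀ z ∉ tsupport t, t z i = 0 := fun i z hz => by
    rw [image_eq_zero_of_notMem_tsupport hz, Pi.zero_apply]
  have ts : ∀ i, ContDiffOn ℝ ∞ (fun z => t z i) U := fun i => (ht.smooth i).contDiffOn
  have hP := fun i j => (apr_zero hU hC ht.sub ((apr_conj (ts i)).mul
    (((d1_smooth hU (h.smooth i j)).mul (ts j)).add ((h.smooth i j).mul (d1_smooth hU (ts j)))))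
    fun z hz => by rw [t0 i z hz, map_zero, zero_mul]).2
  have hQ := fun i j => (apr_zero hU hC ht.sub ((apr_conj (ts i)).mul
    ((h.smooth i j).mul (d2_smooth hU (ts j))))
    fun z hz => by rw [t0 i z hz, map_zero, zero_mul]).1
  set R : ℂ → ℂ := fun z => ∑ i, ∑ j,
    (d2 (fun w => conj (t w i) * (d1 (fun w => K w i j) w * t w j +
      K w i j * d1 (fun w => t w j) w)) z -
    d1 (fun w => conj (t w i) * (K w i j * d2 (fun w => t w j) w)) z) with hR
  have i1 := fun i j => (hP i j).1.sub (hQ i j).1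
  have i2 := fun i => integrable_finsetSum Finset.univ fun j _ => i1 i j
  have iR : IntegrableOn R U := integrable_finsetSum Finset.univ fun i _ => i2 i
  have zR : ∫ z in U, R z = 0 := by
    refine (integral_finsetSum Finset.univ fun i _ => i2 i).trans
      (Finset.sum_eq_zero fun i _ => ?_)
    refine (integral_finsetSum Finset.univ fun j _ => i1 i j).trans
      (Finset.sum_eq_zero fun j _ => ?_)
    refine (integral_sub (hP i j).1 (hQ i j).1).trans ?_
    rw [(hP i j).2, (hQ i j).2, sub_zero]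
  have eR : ∀ z ∈ U, blk K z (t z) (vd1 t z) =
      (R z).re + (hf (K z) (vd2 t z) (vd2 t z)).re := fun z hz => by
    rw [blk, ← add_re]
    congr 1
    simp only [hR, apr_hf, ← Finset.sum_add_distrib]
    refine Finset.sum_congr rfl fun i _ => Finset.sum_congr rfl fun j _ => ?_
    rw [apr_entry hU (ts i) (ts j) (h.smooth i j) hz]
    exact (sub_add_cancel _ _).symm
  have iL : IntegrableOn (fun z => l z * (hf (K z) (t z) (t z)).re) U :=
    apr_int hU hC ht.sub (hl.mul (apr_cont h ts)) fun z hz => by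
      simp only [apr_hf, t0 _ z hz, mul_zero, Finset.sum_const_zero, zero_re]
  have iV : IntegrableOn (fun z => (hf (K z) (vd2 t z) (vd2 t z)).re) U :=
    apr_int hU hC ht.sub (apr_cont h fun i => d2_smooth hU (ts i)) fun z hz => by
      have : ∀ i, vd2 t z i = 0 := fun i =>
        (d2_congr (apr_ev hC (t0 i) hz)).trans (d2_const 0)
      simp only [apr_hf, this, mul_zero, Finset.sum_const_zero, zero_re]
  have iR' : IntegrableOn (fun z => (R z).re) U := iR.re
  have zR' : ∫ z in U, (R z).re = 0 := by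
    have := integral_re iR
    rw [zR, map_zero] at this
    exact this
  calc _ ≤ ∫ z in U, ((R z).re + (hf (K z) (vd2 t z) (vd2 t z)).re) :=
        setIntegral_mono_on iL (iR'.add iV) hU.measurableSet fun z hz =>
          (hn z hz _ (vd1 t z)).trans_eq (eR z hz)
    _ = _ := by rw [integral_add iR' iV, zR', zero_add]

end Vale.Agent.P253
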