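import Vale.Agent.P253.Calc

/-!
The variation of the area density. With `F w = f w + t • b w`, `x = F z`: the derivative in `s` of
`g (f z + s • b z) i j` is `fderiv ℝ (g · i j) x (b z)`, expand with `fd_wirt`. `d1 (PP ..) z` is
`∑ i j, (∑ k, dz (g i j) k x * F' k) * b i * conj (F' j) + g i j * b' i * conj (F' j)` (`chain`,
`d1_mul`, `d1_conj`, `d2_holo`); by `IsKaehler.closed` the first sum is
`∑ i j k, dz (g i j) k x * b k * F' i * conj (F' j)`. The remaining terms of the derivative are the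
complex conjugates since `g j i = conj (g i j)` near `x` (`fd_conj`: `dzb (g j i) k = conj (dz (g i j) k)`).
-/

namespace Vale.Agent.P253

open Complex Matrix Metric Set Filter Topology MeasureTheory
open scoped ContDiff ComplexConjugate ComplexOrder ENNReal

variable {n : ℕ}

lemma ar1_alg (G : Fin n → Fin n → ℂ) (D Db : Fin n → Fin n → Fin n → ℂ) (a B c : Fin n → ℂ)
    (hG : ∀ i j, G j i = conj (G i j)) (hD : ∀ i j k, Db j i k = conj (D i j k))
    (hc : ∀ i j k, D i j k = D k j i) :
    (∑ i, ∑ j, ((∑ k, (D i j k * B k + Db i j k * conj (B k))) * a i * conj (a j) +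
      G i j * c i * conj (a j) + G i j * a i * conj (c j))).re =
    2 * (∑ i, ∑ j, ((∑ k, D i j k * a k) * B i * conj (a j) + G i j * c i * conj (a j))).re := by
  obtain ⟨S1, h1⟩ : ∃ S : ℂ, S = ∑ i, ∑ j, ∑ k, D i j k * B k * a i * conj (a j) := ⟨_, rfl⟩
  obtain ⟨S3, h3⟩ : ∃ S : ℂ, S = ∑ i, ∑ j, G i j * c i * conj (a j) := ⟨_, rfl⟩
  have e1 : ∑ i, ∑ j, ∑ k, Db i j k * conj (B k) * a i * conj (a j) = conj S1 := by
    rw [h1, Finset.sum_comm]
    simp only [map_sum, map_mul, conj_conj]
    refine Finset.sum_congr rfl fun i _ => Finset.sum_congr rfl fun j _ =>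
      Finset.sum_congr rfl fun k _ => ?_
    rw [hD i j k]
    ring
  have e3 : ∑ i, ∑ j, G i j * a i * conj (c j) = conj S3 := by
    rw [h3, Finset.sum_comm]
    simp only [map_sum, map_mul, conj_conj]
    refine Finset.sum_congr rfl fun i _ => Finset.sum_congr rfl fun j _ => ?_
    rw [hG i j]
    ring
  have e2 : ∑ i, ∑ j, (∑ k, D i j k * a k) * B i * conj (a j) = S1 := by
    rw [h1]
    simp only [Finset.sum_mul]
    rw [Finset.sum_comm]
    conv_rhs => rw [Finset.sum_comm]
    refine Finset.sum_congr rfl fun j _ => ?_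
    rw [Finset.sum_comm]
    refine Finset.sum_congr rfl fun i _ => Finset.sum_congr rfl fun k _ => ?_
    rw [hc k j i]
    ring
  have eL : ∑ i, ∑ j, ((∑ k, (D i j k * B k + Db i j k * conj (B k))) * a i * conj (a j) +
      G i j * c i * conj (a j) + G i j * a i * conj (c j)) = S1 + S3 + conj (S1 + S3) := by
    rw [map_add, ← e1, ← e3, h1, h3]
    simp only [Finset.sum_mul, add_mul, Finset.sum_add_distrib]
    ring
  have eR : ∑ i, ∑ j, ((∑ k, D i j k * a k) * B i * conj (a j) + G i j * c i * conj (a j)) =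
      S1 + S3 := by
    rw [← e2, h3]
    simp only [Finset.sum_add_distrib]
  rw [eL, eR, add_re (S1 + S3), conj_re]
  ring

lemma ar1_herm {Ω : Set (E n)} {g : E n → M n} (hg : IsKaehler Ω g) {x : E n} (hx : x ∈ Ω)
    (i j : Fin n) : g x j i = conj (g x i j) :=
  ((hg.pos x hx).isHermitian.apply j i).symm

lemma ar1_dzb {Ω : Set (E n)} (hΩ : IsOpen Ω) {g : E n → M n} (hg : IsKaehler Ω g) {x : E n}
    (hx : x ∈ Ω) (i j k : Fin n) :
    dzb (fun y => g y j i) k x = conj (dz (fun y => g y i j) k x) := by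
  have h : (fun y => g y j i) =ᶠ[𝓝 x] fun y => conj (g y i j) := by
    filter_upwards [hΩ.mem_nhds hx] with y hy using ar1_herm hg hy i j
  rw [dzb, dz, h.fderiv_eq, fd_conj (fun y => g y i j), fd_conj (fun y => g y i j)]
  simp only [map_div₀, map_sub, map_mul, conj_I, map_ofNat]
  ring

lemma ar1_coord {b : ℂ → E n} {z : ℂ} (hb : DifferentiableAt ℂ b z) (i : Fin n) :
    HasDerivAt (fun w => b w i) (deriv b z i) z :=
  (EuclideanSpace.proj i : E n →L[ℂ] ℂ).hasFDerivAt.comp_hasDerivAt z hb.hasDerivAt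

lemma ar1_deriv {b : ℂ → E n} (hb : Differentiable ℂ b) : Differentiable ℂ (deriv b) := by
  have h : DifferentiableOn ℂ (deriv b) univ := hb.differentiableOn.deriv isOpen_univ
  exact differentiableOn_univ.1 h

lemma ar1_pp {Ω : Set (E n)} (hΩ : IsOpen Ω) {g : E n → M n} (hg : IsKaehler Ω g)
    {f b : ℂ → E n} (hf' : Differentiable ℂ f) (hb : Differentiable ℂ b) {t : ℝ} {z : ℂ}
    (h : f z + (t : ℂ) • b z ∈ Ω) :
    d1 (PP g f b t) z = ∑ i, ∑ j,
      ((∑ k, dz (fun y => g y i j) k (f z + (t : ℂ) • b z) * (deriv f z k + t * deriv b z k)) *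
        b z i * conj (deriv f z j + t * deriv b z j) +
      g (f z + (t : ℂ) • b z) i j * deriv b z i * conj (deriv f z j + t * deriv b z j)) := by
  have hF : HasDerivAt (fun w => f w + (t : ℂ) • b w) (deriv f z + (t : ℂ) • deriv b z) z :=
    (hf' z).hasDerivAt.add ((hb z).hasDerivAt.const_smul (t : ℂ))
  have hFr : DifferentiableAt ℝ (fun w => f w + (t : ℂ) • b w) z :=
    hF.differentiableAt.restrictScalars ℝ
  have hg0 : ∀ i j, DifferentiableAt ℝ (fun y => g y i j) (f z + (t : ℂ) • b z) :=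
    fun i j => diffAt hΩ (hg.smooth i j) h
  have hg1 : ∀ i j, DifferentiableAt ℝ (fun w => g (f w + (t : ℂ) • b w) i j) z :=
    fun i j => DifferentiableAt.comp (g := fun y => g y i j)
      (f := fun w => f w + (t : ℂ) • b w) z (hg0 i j) hFr
  have hg2 : ∀ i j, d1 (fun w => g (f w + (t : ℂ) • b w) i j) z =
      ∑ k, dz (fun y => g y i j) k (f z + (t : ℂ) • b z) * (deriv f z k + t * deriv b z k) := by
    intro i j
    have e := (chain (φ := fun y => g y i j) (F := fun w => f w + (t : ℂ) • b w) (hg0 i j)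
      hF.differentiableAt).1
    rw [hF.deriv] at e
    simpa using e
  have hb1 : ∀ i, DifferentiableAt ℝ (fun w => b w i) z :=
    fun i => (ar1_coord (hb z) i).differentiableAt.restrictScalars ℝ
  have hb2 : ∀ i, d1 (fun w => b w i) z = deriv b z i := by
    intro i
    rw [d1_holo (ar1_coord (hb z) i).differentiableAt, (ar1_coord (hb z) i).deriv]
  have ha0 : ∀ j, DifferentiableAt ℂ (fun w => deriv f w j + t * deriv b w j) z :=
    fun j => (ar1_coord (ar1_deriv hf' z) j).differentiableAt.add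
      ((ar1_coord (ar1_deriv hb z) j).differentiableAt.const_mul _)
  have ha1 : ∀ j, DifferentiableAt ℝ (fun w => conj (deriv f w j + t * deriv b w j)) z :=
    fun j => diff_conj ((ha0 j).restrictScalars ℝ)
  have ha2 : ∀ j, d1 (fun w => conj (deriv f w j + t * deriv b w j)) z = 0 := by
    intro j
    rw [d1_conj (fun w => deriv f w j + t * deriv b w j), d2_holo (ha0 j), map_zero]
  have hT : ∀ i j, DifferentiableAt ℝ (fun w => g (f w + (t : ℂ) • b w) i j * b w i *
      conj (deriv f w j + t * deriv b w j)) z :=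
    fun i j => ((hg1 i j).mul (hb1 i)).mul (ha1 j)
  have e0 : PP g f b t = fun w => ∑ i, ∑ j, g (f w + (t : ℂ) • b w) i j * b w i *
      conj (deriv f w j + t * deriv b w j) := rfl
  rw [e0, d1_sum Finset.univ (F := fun i w => ∑ j, g (f w + (t : ℂ) • b w) i j * b w i *
    conj (deriv f w j + t * deriv b w j)) fun i _ => DifferentiableAt.fun_sum fun j _ => hT i j]
  refine Finset.sum_congr rfl fun i _ => ?_
  rw [d1_sum Finset.univ (F := fun j w => g (f w + (t : ℂ) • b w) i j * b w i *
    conj (deriv f w j + t * deriv b w j)) fun j _ => hT i j]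
  refine Finset.sum_congr rfl fun j _ => ?_
  have e1 := d1_mul (f := fun w => g (f w + (t : ℂ) • b w) i j * b w i)
    (g := fun w => conj (deriv f w j + t * deriv b w j)) ((hg1 i j).mul (hb1 i)) (ha1 j)
  have e2 := d1_mul (f := fun w => g (f w + (t : ℂ) • b w) i j) (g := fun w => b w i)
    (hg1 i j) (hb1 i)
  rw [e1, e2, ha2, hg2, hb2]
  ring

lemma ar1_nn {Ω : Set (E n)} (hΩ : IsOpen Ω) {g : E n → M n} (hg : IsKaehler Ω g)
    (p q : E n) (u c : Fin n → ℂ) {t : ℝ} (h : p + (t : ℂ) • q ∈ Ω) (i j : Fin n) :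
    HasDerivAt (fun s : ℝ => g (p + (s : ℂ) • q) i j * (u i + s * c i) * conj (u j + s * c j))
      (fderiv ℝ (fun y => g y i j) (p + (t : ℂ) • q) q * (u i + t * c i) * conj (u j + t * c j) +
        g (p + (t : ℂ) • q) i j * c i * conj (u j + t * c j) +
        g (p + (t : ℂ) • q) i j * (u i + t * c i) * conj (c j)) t := by
  have h0 : HasDerivAt (fun s : ℝ => (s : ℂ)) 1 t := ofRealCLM.hasDerivAt
  have h1 : HasDerivAt (fun s : ℝ => p + (s : ℂ) • q) q t := by
    have e := (h0.smul_const q).const_add p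
    rwa [one_smul] at e
  have h2 : HasDerivAt (fun s : ℝ => g (p + (s : ℂ) • q) i j)
      (fderiv ℝ (fun y => g y i j) (p + (t : ℂ) • q) q) t :=
    HasFDerivAt.comp_hasDerivAt (l := fun y => g y i j) (f := fun s : ℝ => p + (s : ℂ) • q) t
      (diffAt hΩ (hg.smooth i j) h).hasFDerivAt h1
  have h3 : ∀ u c : ℂ, HasDerivAt (fun s : ℝ => u + s * c) c t := by
    intro u c
    have e := (h0.mul_const c).const_add u
    rwa [one_mul] at e
  have h4 : HasDerivAt (fun s : ℝ => conj (u j + s * c j)) (conj (c j)) t := by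
    have e : (fun s : ℝ => conj (u j + s * c j)) = fun s : ℝ => conj (u j) + s * conj (c j) := by
      funext s
      rw [map_add, map_mul, conj_ofReal]
    rw [e]
    exact h3 _ _
  refine ((h2.fun_mul (h3 (u i) (c i))).fun_mul h4).congr_deriv ?_
  ring

theorem area_der {Ω : Set (E n)} (hΩ : IsOpen Ω) {g : E n → M n} (hg : IsKaehler Ω g)
    {f b : ℂ → E n} (hf' : Differentiable ℂ f) (hb : Differentiable ℂ b) {t : ℝ} {z : ℂ}
    (h : f z + (t : ℂ) • b z ∈ Ω) :
    HasDerivAt (fun s : ℝ => NN g f b s z) (2 * (d1 (PP g f b t) z).re) t := by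
  have h1 : HasDerivAt (fun s : ℝ => ∑ i, ∑ j, g (f z + (s : ℂ) • b z) i j *
      (deriv f z i + s * deriv b z i) * conj (deriv f z j + s * deriv b z j)) _ t :=
    HasDerivAt.fun_sum fun i _ => HasDerivAt.fun_sum fun j _ =>
      ar1_nn hΩ hg (f z) (b z) (fun i => deriv f z i) (fun i => deriv b z i) h i j
  have h2 := reCLM.hasFDerivAt.comp_hasDerivAt t h1
  refine HasDerivAt.congr_deriv (f := fun s : ℝ => NN g f b s z) h2 ?_
  rw [ar1_pp hΩ hg hf' hb h, reCLM_apply]
  simp only [fd_wirt]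
  exact ar1_alg (fun i j => g (f z + (t : ℂ) • b z) i j)
    (fun i j k => dz (fun y => g y i j) k (f z + (t : ℂ) • b z))
    (fun i j k => dzb (fun y => g y i j) k (f z + (t : ℂ) • b z))
    (fun i => deriv f z i + t * deriv b z i) (fun i => b z i) (fun i => deriv b z i)
    (ar1_herm hg h) (ar1_dzb hΩ hg h) (hg.closed _ h)

end Vale.Agent.P253
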