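import Vale.Agent.P253.Ar1

/-!
Bounded area. `χ : ContDiffBump (0 : ℂ)` with `rIn = 1`, `rOut = 3 / 2`. For `τ < 1` let
`A τ = ∫ χ z * NN τ z`. The map `(s, z) ↦ d1 (PP s) z` is continuous on `[0, τ] × ball 0 2` (explicit
formula, or: `(s, z) ↦ PP s z` is smooth on the open set where `f z + s • b z ∈ Ω`), so by `area_der`,
the fundamental theorem of calculus and Fubini (or `hasDerivAt_integral_of_dominated_loc_of_deriv_le`)
`A τ - A 0 = ∫ s in 0..τ, 2 re ∫ χ * d1 (PP s)`, and `∫ χ * d1 (PP s) = -∫ d1 χ * PP s` (`int_d1` for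
`χ * PP s`). `d1 χ` vanishes unless `1 ≤ ‖z‖ ≤ 3 / 2`, and `PP` is continuous on the compact set
`[0, 1] × annulus`, so `A τ ≤ C`. Fatou (`lintegral_liminf_le'`) along `τ = 1 - 1 / (k + 1)` on `pd 1`.
-/

namespace Vale.Agent.P253

open Complex Matrix Metric Set Filter Topology MeasureTheory
open scoped ContDiff ComplexConjugate ComplexOrder ENNReal

variable {n : ℕ}

section Abs
variable {W : Set (ℝ × ℂ)} {Q : ℝ × ℂ → ℂ} {N : ℝ × ℂ → ℝ}

lemma area_D (hW : IsOpen W) (hQ : ContDiffOn ℝ ∞ Q W) :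
    ContinuousOn (fun p : ℝ × ℂ => d1 (fun z => Q (p.1, z)) p.2) W := by
  have h1 := ((fd_smooth hW hQ (0, 1)).continuousOn.sub
    (continuousOn_const.mul (fd_smooth hW hQ (0, I)).continuousOn (f := fun _ => I))).div_const 2
  refine h1.congr fun p hp => ?_
  have h2 : ∀ v : ℂ, fderiv ℝ (fun z => Q (p.1, z)) p.2 v = fderiv ℝ Q p (0, v) := fun v => by
    have h3 := HasFDerivAt.comp (f := fun z => (p.1, z)) p.2 (diffAt hW hQ hp).hasFDerivAt
      (hasFDerivAt_prodMk_right p.1 p.2)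
    exact congrArg (fun L : ℂ →L[ℝ] ℂ => L v) h3.fderiv
  simp only [d1, h2, Pi.sub_apply, Pi.mul_apply]

/-- The cutoff function. -/
noncomputable def area_chi : ContDiffBump (0 : ℂ) := ⟨1, 3 / 2, one_pos, by norm_num⟩

lemma area_chi_sm : ContDiff ℝ ∞ fun z => (area_chi z : ℂ) :=
  ofRealCLM.contDiff.comp area_chi.contDiff

lemma area_chi_ev {z : ℂ} (hz : z ∉ closedBall (0 : ℂ) (3 / 2)) :
    ∀ᶠ w in 𝓝 z, area_chi w = 0 := by
  filter_upwards [isClosed_closedBall.isOpen_compl.mem_nhds hz] with w hw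
  exact area_chi.zero_of_le_dist (not_le.1 fun h => hw (mem_closedBall.2 h)).le

lemma area_K {z : ℂ} (hz : z ∈ closedBall (0 : ℂ) (3 / 2)) : ‖z‖ ≤ 2 :=
  (mem_closedBall_zero_iff.1 hz).trans (by norm_num)

lemma area_bd (hQ : ContDiffOn ℝ ∞ Q W)
    (hin : ∀ t ∈ Icc (0 : ℝ) 1, ∀ z : ℂ, ‖z‖ ≤ 2 → (t < 1 ∨ z ≠ 0) → (t, z) ∈ W) :
    ∃ C, 0 ≤ C ∧ ∀ s ∈ Icc (0 : ℝ) 1, ∀ z ∈ closedBall (0 : ℂ) (3 / 2),
      ‖d1 (fun w => (area_chi w : ℂ)) z * Q (s, z)‖ ≤ C := by
  have hK : IsCompact (Icc (0 : ℝ) 1 ×ˢ (closedBall (0 : ℂ) (3 / 2) \ ball 0 1)) :=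
    isCompact_Icc.prod ((isCompact_closedBall _ _).diff isOpen_ball)
  have h1 : Continuous (d1 fun w => (area_chi w : ℂ)) :=
    continuousOn_univ.1 (d1_smooth isOpen_univ area_chi_sm.contDiffOn).continuousOn
  obtain ⟨C, hC⟩ := hK.exists_bound_of_continuousOn
    (f := fun p : ℝ × ℂ => d1 (fun w => (area_chi w : ℂ)) p.2 * Q p)
    ((h1.comp continuous_snd).continuousOn.mul (hQ.continuousOn.mono fun p hp =>
      hin _ hp.1 _ (area_K hp.2.1) (Or.inr fun h => hp.2.2 (h ▸ mem_ball_self one_pos))))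
  refine ⟨|C|, abs_nonneg _, fun s hs z hz => ?_⟩
  by_cases h : z ∈ ball (0 : ℂ) 1
  · have e : (fun w => (area_chi w : ℂ)) =ᶠ[𝓝 z] fun _ => 1 :=
      (area_chi.eventuallyEq_one_of_mem_ball h).mono fun w hw => by simp [hw]
    rw [d1_congr e, d1_const, zero_mul, norm_zero]
    exact abs_nonneg _
  · exact (hC (s, z) ⟨hs, hz, h⟩).trans (le_abs_self _)

lemma area_parts {P : ℂ → ℂ} (hP : ContDiffOn ℝ ∞ P (ball 0 2)) {C : ℝ}
    (hC : ∀ z ∈ closedBall (0 : ℂ) (3 / 2), ‖d1 (fun w => (area_chi w : ℂ)) z * P z‖ ≤ C) :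
    ∫ z in closedBall (0 : ℂ) (3 / 2), area_chi z * (2 * (d1 P z).re) ≤
      volume.real (closedBall (0 : ℂ) (3 / 2)) * (2 * C) := by
  have hsub : closedBall (0 : ℂ) (3 / 2) ⊆ ball 0 2 := closedBall_subset_ball (by norm_num)
  have hev : ∀ z ∉ closedBall (0 : ℂ) (3 / 2),
      (fun w => (area_chi w : ℂ) * P w) =ᶠ[𝓝 z] fun _ => 0 := fun z hz =>
    (area_chi_ev hz).mono fun w hw => by simp [hw]
  have h1 : ContDiff ℝ 1 fun w => (area_chi w : ℂ) * P w := by
    refine contDiff_iff_contDiffAt.2 fun z => ?_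
    by_cases hz : z ∈ closedBall (0 : ℂ) (3 / 2)
    · exact (area_chi_sm.contDiffAt.mul
        (hP.contDiffAt (isOpen_ball.mem_nhds (hsub hz)))).of_le (by norm_cast)
    · exact contDiffAt_const.congr_of_eventuallyEq (hev z hz)
  have h2 : HasCompactSupport fun w => (area_chi w : ℂ) * P w :=
    HasCompactSupport.intro (isCompact_closedBall 0 (3 / 2)) fun z hz => (hev z hz).self_of_nhds
  obtain ⟨h3, h4⟩ := int_d1 h1 h2
  have h5 : ∫ z in closedBall (0 : ℂ) (3 / 2), (d1 (fun w => (area_chi w : ℂ) * P w) z).re = 0 := by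
    rw [setIntegral_eq_integral_of_forall_compl_eq_zero fun z hz => by
      rw [d1_congr (hev z hz), d1_const, zero_re]]
    have := integral_re h3
    rw [h4] at this
    simpa using this
  have h6 : IntegrableOn (fun z => 2 * (d1 (fun w => (area_chi w : ℂ) * P w) z).re)
      (closedBall (0 : ℂ) (3 / 2)) := (h3.re.const_mul 2).integrableOn
  have h7 : IntegrableOn (fun _ : ℂ => 2 * C) (closedBall (0 : ℂ) (3 / 2)) :=
    continuousOn_const.integrableOn_compact (isCompact_closedBall _ _)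
  have h8 : ContinuousOn (fun z => area_chi z * (2 * (d1 P z).re)) (closedBall (0 : ℂ) (3 / 2)) :=
    area_chi.continuous.continuousOn.mul (continuousOn_const.mul (continuous_re.comp_continuousOn
      ((d1_smooth isOpen_ball hP).continuousOn.mono hsub)))
  refine (setIntegral_mono_on (h8.integrableOn_compact (isCompact_closedBall _ _)) (h6.add h7)
    measurableSet_closedBall fun z hz => ?_).trans (le_of_eq ?_)
  · have h9 := (abs_le.1 ((abs_re_le_norm _).trans (hC z hz))).1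
    simp only [Pi.add_apply]
    rw [d1_mul (area_chi_sm.differentiable (by simp) z) (diffAt isOpen_ball hP (hsub hz)), add_re,
      re_ofReal_mul]
    linarith
  · simp only [Pi.add_apply]
    rw [integral_add h6 h7, integral_const_mul, h5, setIntegral_const, smul_eq_mul]
    ring

lemma area_unif (hW : IsOpen W) (hQ : ContDiffOn ℝ ∞ Q W) (hN : ContinuousOn N W)
    (hd : ∀ p ∈ W, HasDerivAt (fun s => N (s, p.2)) (2 * (d1 (fun z => Q (p.1, z)) p.2).re) p.1)
    (hin : ∀ t ∈ Icc (0 : ℝ) 1, ∀ z : ℂ, ‖z‖ ≤ 2 → (t < 1 ∨ z ≠ 0) → (t, z) ∈ W) :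
    ∃ B, ∀ τ ∈ Ico (0 : ℝ) 1, ∫ z in closedBall (0 : ℂ) (3 / 2), area_chi z * N (τ, z) ≤ B := by
  obtain ⟨C, hC0, hC⟩ := area_bd hQ hin
  set K := closedBall (0 : ℂ) (3 / 2) with hK
  have cK : IsCompact K := isCompact_closedBall _ _
  refine ⟨(∫ z in K, area_chi z * N (0, z)) + volume.real K * (2 * C), fun τ hτ => ?_⟩
  have hm : ∀ s ∈ Icc 0 τ, ∀ z : ℂ, ‖z‖ ≤ 2 → (s, z) ∈ W := fun s hs z hz =>
    hin s ⟨hs.1, hs.2.trans hτ.2.le⟩ z hz (Or.inl (hs.2.trans_lt hτ.2))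
  have cH : ContinuousOn (fun p : ℝ × ℂ =>
      area_chi p.2 * (2 * (d1 (fun z => Q (p.1, z)) p.2).re)) W :=
    (area_chi.continuous.comp continuous_snd).continuousOn.mul (continuousOn_const.mul
      (continuous_re.comp_continuousOn (area_D hW hQ)))
  have cN : ∀ s ∈ Icc 0 τ, IntegrableOn (fun z => area_chi z * N (s, z)) K := fun s hs =>
    (area_chi.continuous.continuousOn.mul (hN.comp (Continuous.prodMk_right s).continuousOn
      fun z hz => hm s hs z (area_K hz))).integrableOn_compact cK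
  have h1 : ∀ z ∈ K, area_chi z * N (τ, z) - area_chi z * N (0, z) =
      ∫ s in Icc 0 τ, area_chi z * (2 * (d1 (fun w => Q (s, w)) z).re) := fun z hz => by
    rw [integral_Icc_eq_integral_Ioc, ← intervalIntegral.integral_of_le hτ.1]
    refine (intervalIntegral.integral_eq_sub_of_hasDerivAt
      (f := fun s => area_chi z * N (s, z)) (fun s hs => ?_) ?_).symm
    · rw [uIcc_of_le hτ.1] at hs
      exact (hd (s, z) (hm s hs z (area_K hz))).const_mul _
    · refine ContinuousOn.intervalIntegrable ?_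
      rw [uIcc_of_le hτ.1]
      exact cH.comp (Continuous.prodMk_left z).continuousOn fun s hs => hm s hs z (area_K hz)
  have h2 : Integrable (Function.uncurry fun (s : ℝ) (z : ℂ) =>
      area_chi z * (2 * (d1 (fun w => Q (s, w)) z).re))
      ((volume.restrict (Icc 0 τ)).prod (volume.restrict K)) := by
    rw [Measure.prod_restrict]
    exact (cH.mono fun p hp => hm _ hp.1 _ (area_K hp.2)).integrableOn_compact
      (isCompact_Icc.prod cK)
  rw [← sub_le_iff_le_add', ← integral_sub (cN τ ⟨hτ.1, le_rfl⟩) (cN 0 ⟨le_rfl, hτ.1⟩),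
    setIntegral_congr_fun measurableSet_closedBall h1, ← integral_integral_swap h2]
  have h3 : IntegrableOn (fun _ : ℝ => volume.real K * (2 * C)) (Icc 0 τ) :=
    continuousOn_const.integrableOn_compact isCompact_Icc
  refine (setIntegral_mono_on h2.integral_prod_left h3 measurableSet_Icc fun s hs => ?_).trans ?_
  · refine area_parts (P := fun w => Q (s, w)) ?_ (hC s ⟨hs.1, hs.2.trans hτ.2.le⟩)
    exact hQ.comp (contDiff_const.prodMk contDiff_id).contDiffOn fun z hz =>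
      hm s hs z (mem_ball_zero_iff.1 hz).le
  · rw [setIntegral_const, smul_eq_mul, Real.volume_real_Icc_of_le hτ.1]
    exact mul_le_of_le_one_left (by positivity) (by linarith [hτ.2])

lemma area_abs (hW : IsOpen W) (hQ : ContDiffOn ℝ ∞ Q W) (hN : ContinuousOn N W)
    (h0 : ∀ p ∈ W, 0 ≤ N p)
    (hd : ∀ p ∈ W, HasDerivAt (fun s => N (s, p.2)) (2 * (d1 (fun z => Q (p.1, z)) p.2).re) p.1)
    (hin : ∀ t ∈ Icc (0 : ℝ) 1, ∀ z : ℂ, ‖z‖ ≤ 2 → (t < 1 ∨ z ≠ 0) → (t, z) ∈ W) :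
    ∫⁻ z in pd 1, ENNReal.ofReal (N (1, z)) < ⊤ := by
  obtain ⟨B, hB⟩ := area_unif hW hQ hN hd hin
  set τ : ℕ → ℝ := fun k => 1 - 1 / ((k : ℝ) + 1) with hτ
  have t1 : ∀ k, τ k ∈ Ico (0 : ℝ) 1 := fun k => by
    have a : (0 : ℝ) < 1 / ((k : ℝ) + 1) := by positivity
    have b : 1 / ((k : ℝ) + 1) ≤ 1 := (div_le_one (by positivity)).2 (by simp)
    exact ⟨sub_nonneg.2 b, sub_lt_self _ a⟩
  have t2 : Tendsto τ atTop (𝓝 1) := by
    have := tendsto_one_div_add_atTop_nhds_zero_nat.const_sub (1 : ℝ)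
    rwa [sub_zero] at this
  have hm : ∀ k, ∀ z ∈ closedBall (0 : ℂ) (3 / 2), (τ k, z) ∈ W := fun k z hz =>
    hin _ ⟨(t1 k).1, (t1 k).2.le⟩ z (area_K hz) (Or.inl (t1 k).2)
  have hsub : pd 1 ⊆ closedBall (0 : ℂ) (3 / 2) := fun z hz =>
    mem_closedBall_zero_iff.2 ((mem_pd.1 hz).1.le.trans (by norm_num))
  have mp := (pd_open 1).measurableSet
  have cN : ∀ k, ContinuousOn (fun z => N (τ k, z)) (closedBall (0 : ℂ) (3 / 2)) := fun k =>
    hN.comp (Continuous.prodMk_right _).continuousOn (hm k)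
  have h1 : ∀ k, ∫⁻ z in pd 1, ENNReal.ofReal (N (τ k, z)) ≤ ENNReal.ofReal B := fun k => by
    refine le_trans ?_ (ENNReal.ofReal_le_ofReal (hB _ (t1 k)))
    rw [ofReal_integral_eq_lintegral_ofReal (f := fun z => area_chi z * N (τ k, z))
      ((area_chi.continuous.continuousOn.mul (cN k)).integrableOn_compact (isCompact_closedBall _ _))
      ((ae_restrict_mem measurableSet_closedBall).mono fun z hz =>
        mul_nonneg area_chi.nonneg (h0 _ (hm k z hz)))]
    refine le_trans (le_of_eq (setLIntegral_congr_fun mp fun z hz => ?_)) (lintegral_mono_set hsub)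
    have : area_chi z = 1 :=
      area_chi.one_of_mem_closedBall (mem_closedBall_zero_iff.2 (mem_pd.1 hz).1.le)
    simp only [this, one_mul]
  have h2 : ∀ z ∈ pd 1, ENNReal.ofReal (N (1, z)) =
      liminf (fun k => ENNReal.ofReal (N (τ k, z))) atTop := fun z hz => by
    have a := (hd (1, z) (hin 1 ⟨zero_le_one, le_rfl⟩ z (area_K (hsub hz))
      (Or.inr (mem_pd.1 hz).2))).continuousAt
    exact (ENNReal.tendsto_ofReal (a.tendsto.comp t2)).liminf_eq.symm
  rw [setLIntegral_congr_fun mp h2]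
  refine (lintegral_liminf_le' fun k =>
    (((cN k).mono hsub).aemeasurable mp).ennreal_ofReal).trans_lt ?_
  exact (liminf_le_of_frequently_le' (Frequently.of_forall h1)).trans_lt ENNReal.ofReal_lt_top

end Abs

lemma area_co {f : ℂ → E n} (h : Differentiable ℂ f) (i : Fin n) :
    ContDiff ℝ ∞ (fun p : ℝ × ℂ => f p.2 i) ∧ ContDiff ℝ ∞ fun p : ℝ × ℂ => deriv f p.2 i := by
  have h1 : ContDiff ℂ ∞ f := h.contDiff
  exact ⟨((contDiff_euclidean.1 h1 i).restrict_scalars ℝ).comp contDiff_snd,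
    ((contDiff_euclidean.1 (contDiff_infty_iff_deriv.1 h1).2 i).restrict_scalars ℝ).comp
      contDiff_snd⟩

theorem area {Ω : Set (E n)} (hΩ : IsOpen Ω) {g : E n → M n} (hg : IsKaehler Ω g)
    {f b : ℂ → E n} (hT : Touch Ω f b) : ∫⁻ z in pd 1, ENNReal.ofReal (NN g f b 1 z) < ⊤ := by
  have c0 : ContDiff ℝ ∞ fun p : ℝ × ℂ => (p.1 : ℂ) := ofRealCLM.contDiff.comp contDiff_fst
  have cf : ContDiff ℝ ∞ f := (hT.df.contDiff (n := ∞)).restrict_scalars ℝ
  have cb : ContDiff ℝ ∞ b := (hT.db.contDiff (n := ∞)).restrict_scalars ℝ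
  have cF : ContDiff ℝ ∞ fun p : ℝ × ℂ => f p.2 + (p.1 : ℂ) • b p.2 :=
    (cf.comp contDiff_snd).add (c0.smul (cb.comp contDiff_snd))
  have cv : ∀ i, ContDiff ℝ ∞ fun p : ℝ × ℂ => deriv f p.2 i + p.1 * deriv b p.2 i := fun i =>
    (area_co hT.df i).2.add (c0.mul (area_co hT.db i).2)
  have key : ∀ u : ℝ × ℂ → Fin n → ℂ, (∀ i, ContDiff ℝ ∞ fun p => u p i) →
      ContDiffOn ℝ ∞ (fun p : ℝ × ℂ => ∑ i, ∑ j, g (f p.2 + (p.1 : ℂ) • b p.2) i j * u p i *
        (starRingEnd ℂ) (deriv f p.2 j + p.1 * deriv b p.2 j))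
        {p | f p.2 + (p.1 : ℂ) • b p.2 ∈ Ω} := fun u hu =>
    ContDiffOn.sum fun i _ => ContDiffOn.sum fun j _ =>
      (((hg.smooth i j).comp cF.contDiffOn fun p hp => hp).mul (hu i).contDiffOn).mul
        (conjCLE.contDiff.comp (cv j)).contDiffOn
  exact area_abs (W := {p | f p.2 + (p.1 : ℂ) • b p.2 ∈ Ω}) (Q := fun p => PP g f b p.1 p.2)
    (N := fun p => NN g f b p.1 p.2) (hΩ.preimage cF.continuous)
    (key (fun p i => b p.2 i) fun i => (area_co hT.db i).1)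
    (continuous_re.comp_continuousOn (key _ cv).continuousOn)
    (fun p hp => nsq_nonneg (hg.pos _ hp) _) (fun p hp => area_der hΩ hg hT.df hT.db hp) hT.ins

end Vale.Agent.P253
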