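import Vale.Agent.P253.Defs

/-! Rules for the Wirtinger derivatives. -/

namespace Vale.Agent.P253

open Complex Filter Topology MeasureTheory
open scoped ContDiff ComplexConjugate

variable {n : ℕ} {f g : ℂ → ℂ} {z : ℂ} {U : Set ℂ}

lemma d1_congr (h : f =ᶠ[𝓝 z] g) : d1 f z = d1 g z := by simp only [d1, h.fderiv_eq]

lemma d2_congr (h : f =ᶠ[𝓝 z] g) : d2 f z = d2 g z := by simp only [d2, h.fderiv_eq]

lemma d1_const (c : ℂ) : d1 (fun _ => c) z = 0 := by simp [d1]

lemma d2_const (c : ℂ) : d2 (fun _ => c) z = 0 := by simp [d2]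

lemma d1_add (hf : DifferentiableAt ℝ f z) (hg : DifferentiableAt ℝ g z) :
    d1 (fun w => f w + g w) z = d1 f z + d1 g z := by
  simp only [d1, fderiv_fun_add hf hg, ContinuousLinearMap.add_apply]
  ring

lemma d2_add (hf : DifferentiableAt ℝ f z) (hg : DifferentiableAt ℝ g z) :
    d2 (fun w => f w + g w) z = d2 f z + d2 g z := by
  simp only [d2, fderiv_fun_add hf hg, ContinuousLinearMap.add_apply]
  ring

lemma d1_mul (hf : DifferentiableAt ℝ f z) (hg : DifferentiableAt ℝ g z) :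
    d1 (fun w => f w * g w) z = d1 f z * g z + f z * d1 g z := by
  simp only [d1, fderiv_fun_mul hf hg, ContinuousLinearMap.add_apply,
    ContinuousLinearMap.smul_apply, smul_eq_mul]
  ring

lemma d2_mul (hf : DifferentiableAt ℝ f z) (hg : DifferentiableAt ℝ g z) :
    d2 (fun w => f w * g w) z = d2 f z * g z + f z * d2 g z := by
  simp only [d2, fderiv_fun_mul hf hg, ContinuousLinearMap.add_apply,
    ContinuousLinearMap.smul_apply, smul_eq_mul]
  ring

lemma d1_sum {ι : Type} (s : Finset ι) {F : ι → ℂ → ℂ} (h : ∀ i ∈ s, DifferentiableAt ℝ (F i) z) :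
    d1 (fun w => ∑ i ∈ s, F i w) z = ∑ i ∈ s, d1 (F i) z := by
  simp only [d1, fderiv_fun_sum h, ContinuousLinearMap.sum_apply, Finset.mul_sum,
    ← Finset.sum_sub_distrib, Finset.sum_div]

lemma d2_sum {ι : Type} (s : Finset ι) {F : ι → ℂ → ℂ} (h : ∀ i ∈ s, DifferentiableAt ℝ (F i) z) :
    d2 (fun w => ∑ i ∈ s, F i w) z = ∑ i ∈ s, d2 (F i) z := by
  simp only [d2, fderiv_fun_sum h, ContinuousLinearMap.sum_apply, Finset.mul_sum,
    ← Finset.sum_add_distrib, Finset.sum_div]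

lemma fd_conj {X : Type} [NormedAddCommGroup X] [NormedSpace ℝ X] (φ : X → ℂ) (x v : X) :
    fderiv ℝ (fun w => conj (φ w)) x v = conj (fderiv ℝ φ x v) :=
  congrArg (fun L : X →L[ℝ] ℂ => L v) (conjCLE.comp_fderiv (f := φ) (x := x))

lemma d1_conj (f : ℂ → ℂ) (z : ℂ) : d1 (fun w => conj (f w)) z = conj (d2 f z) := by
  simp only [d1, d2, fd_conj, map_div₀, map_add, map_mul, conj_I, map_ofNat]
  ring

lemma d2_conj (f : ℂ → ℂ) (z : ℂ) : d2 (fun w => conj (f w)) z = conj (d1 f z) := by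
  simp only [d1, d2, fd_conj, map_div₀, map_sub, map_mul, conj_I, map_ofNat]
  ring

lemma diff_conj {X : Type} [NormedAddCommGroup X] [NormedSpace ℝ X] {φ : X → ℂ} {x : X}
    (h : DifferentiableAt ℝ φ x) : DifferentiableAt ℝ (fun w => conj (φ w)) x :=
  conjCLE.differentiableAt.comp x h

lemma fd_holo (h : DifferentiableAt ℂ f z) (v : ℂ) : fderiv ℝ f z v = v * deriv f z := by
  rw [(h.hasDerivAt.hasFDerivAt.restrictScalars ℝ).fderiv]
  simp

lemma d1_holo (h : DifferentiableAt ℂ f z) : d1 f z = deriv f z := by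
  rw [d1, fd_holo h, fd_holo h]
  linear_combination (-deriv f z / 2) * I_mul_I

lemma d2_holo (h : DifferentiableAt ℂ f z) : d2 f z = 0 := by
  rw [d2, fd_holo h, fd_holo h]
  linear_combination (deriv f z / 2) * I_mul_I

lemma fd_smooth {X : Type} [NormedAddCommGroup X] [NormedSpace ℝ X] {φ : X → ℂ} {V : Set X}
    (hV : IsOpen V) (h : ContDiffOn ℝ ∞ φ V) (v : X) :
    ContDiffOn ℝ ∞ (fun x => fderiv ℝ φ x v) V :=
  (h.fderiv_of_isOpen hV (m := ∞) le_rfl).clm_apply contDiffOn_const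

lemma d1_smooth (hU : IsOpen U) (h : ContDiffOn ℝ ∞ f U) : ContDiffOn ℝ ∞ (d1 f) U :=
  ((fd_smooth hU h 1).sub (contDiffOn_const.mul (fd_smooth hU h I))).div_const 2

lemma d2_smooth (hU : IsOpen U) (h : ContDiffOn ℝ ∞ f U) : ContDiffOn ℝ ∞ (d2 f) U :=
  ((fd_smooth hU h 1).add (contDiffOn_const.mul (fd_smooth hU h I))).div_const 2

lemma dz_smooth {φ : E n → ℂ} {V : Set (E n)} (hV : IsOpen V) (h : ContDiffOn ℝ ∞ φ V)
    (k : Fin n) : ContDiffOn ℝ ∞ (dz φ k) V :=
  ((fd_smooth hV h _).sub (contDiffOn_const.mul (fd_smooth hV h _))).div_const 2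

lemma dzb_smooth {φ : E n → ℂ} {V : Set (E n)} (hV : IsOpen V) (h : ContDiffOn ℝ ∞ φ V)
    (k : Fin n) : ContDiffOn ℝ ∞ (dzb φ k) V :=
  ((fd_smooth hV h _).add (contDiffOn_const.mul (fd_smooth hV h _))).div_const 2

lemma diffAt {X : Type} [NormedAddCommGroup X] [NormedSpace ℝ X] {φ : X → ℂ} {V : Set X}
    (hV : IsOpen V) (h : ContDiffOn ℝ ∞ φ V) {x : X} (hx : x ∈ V) : DifferentiableAt ℝ φ x :=
  (h.contDiffAt (hV.mem_nhds hx)).differentiableAt (by simp)

lemma fd_symm (hU : IsOpen U) (h : ContDiffOn ℝ ∞ f U) (hz : z ∈ U) (a b : ℂ) :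
    fderiv ℝ (fun w => fderiv ℝ f w a) z b = fderiv ℝ (fun w => fderiv ℝ f w b) z a := by
  have h1 := h.contDiffAt (hU.mem_nhds hz)
  have h2 : DifferentiableAt ℝ (fderiv ℝ f) z :=
    (h1.fderiv_right (m := 1) (by norm_cast)).differentiableAt one_ne_zero
  have h3 : ∀ a b : ℂ, fderiv ℝ (fun w => fderiv ℝ f w a) z b = fderiv ℝ (fderiv ℝ f) z b a :=
    fun a b => by
      rw [fderiv_clm_apply h2 (differentiableAt_const a)]
      simp
  rw [h3, h3]
  exact (h1.isSymmSndFDerivAt (by simp; norm_cast)).eq b a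

lemma fd_d2 (hU : IsOpen U) (h : ContDiffOn ℝ ∞ f U) (hz : z ∈ U) (a : ℂ) :
    fderiv ℝ (d2 f) z a = (fderiv ℝ (fun w => fderiv ℝ f w 1) z a +
      I * fderiv ℝ (fun w => fderiv ℝ f w I) z a) / 2 := by
  have h1 := ((diffAt hU (fd_smooth hU h 1) hz).hasFDerivAt.add
    ((diffAt hU (fd_smooth hU h I) hz).hasFDerivAt.const_mul I)).mul_const (2 : ℂ)⁻¹
  rw [show d2 f = _ from funext fun w => div_eq_mul_inv _ _]
  refine (congrArg (fun L : ℂ →L[ℝ] ℂ => L a) h1.fderiv).trans ?_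
  simp only [ContinuousLinearMap.smul_apply, ContinuousLinearMap.add_apply, smul_eq_mul]
  ring

lemma fd_d1 (hU : IsOpen U) (h : ContDiffOn ℝ ∞ f U) (hz : z ∈ U) (a : ℂ) :
    fderiv ℝ (d1 f) z a = (fderiv ℝ (fun w => fderiv ℝ f w 1) z a -
      I * fderiv ℝ (fun w => fderiv ℝ f w I) z a) / 2 := by
  have h1 := ((diffAt hU (fd_smooth hU h 1) hz).hasFDerivAt.sub
    ((diffAt hU (fd_smooth hU h I) hz).hasFDerivAt.const_mul I)).mul_const (2 : ℂ)⁻¹
  rw [show d1 f = _ from funext fun w => div_eq_mul_inv _ _]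
  refine (congrArg (fun L : ℂ →L[ℝ] ℂ => L a) h1.fderiv).trans ?_
  simp only [ContinuousLinearMap.smul_apply, ContinuousLinearMap.sub_apply, smul_eq_mul]
  ring

/-- `4 ∂ ∂bar` is the Laplacian. -/
lemma d12_lap (hU : IsOpen U) (h : ContDiffOn ℝ ∞ f U) (hz : z ∈ U) :
    d1 (d2 f) z = (fderiv ℝ (fun w => fderiv ℝ f w 1) z 1 +
      fderiv ℝ (fun w => fderiv ℝ f w I) z I) / 4 := by
  rw [d1, fd_d2 hU h hz, fd_d2 hU h hz, fd_symm hU h hz 1 I]
  linear_combination (-fderiv ℝ (fun w => fderiv ℝ f w I) z I / 4) * I_mul_I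

lemma d12_comm (hU : IsOpen U) (h : ContDiffOn ℝ ∞ f U) (hz : z ∈ U) :
    d1 (d2 f) z = d2 (d1 f) z := by
  rw [d12_lap hU h hz, d2, fd_d1 hU h hz, fd_d1 hU h hz, fd_symm hU h hz 1 I]
  linear_combination (fderiv ℝ (fun w => fderiv ℝ f w I) z I / 4) * I_mul_I

lemma int_fd (h : ContDiff ℝ 1 f) (hc : HasCompactSupport f) (v : ℂ) :
    Integrable (fun z => fderiv ℝ f z v) ∧ ∫ z, fderiv ℝ f z v = 0 := by
  have h1 : Integrable fun z => fderiv ℝ f z v :=
    ((h.continuous_fderiv one_ne_zero).clm_apply continuous_const).integrable_of_hasCompactSupport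
      (hc.fderiv_apply ℝ v)
  refine ⟨h1, ?_⟩
  have h2 := integral_mul_fderiv_eq_neg_fderiv_mul_of_integrable (μ := volume) (f := fun _ => 1)
    (g := f) (v := v) (by simp) (by simpa using h1)
    (by simpa using h.continuous.integrable_of_hasCompactSupport hc)
    (fun _ _ => differentiableAt_const _) fun x _ => h.differentiable one_ne_zero x
  simpa using h2

lemma int_d1 (h : ContDiff ℝ 1 f) (hc : HasCompactSupport f) :
    Integrable (d1 f) ∧ ∫ z, d1 f z = 0 := by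
  obtain ⟨a1, a2⟩ := int_fd h hc 1
  obtain ⟨b1, b2⟩ := int_fd h hc I
  refine ⟨(a1.sub (b1.const_mul I)).div_const 2, ?_⟩
  simp only [d1]
  rw [integral_div, integral_sub a1 (b1.const_mul I), integral_const_mul, a2, b2]
  simp

lemma int_d2 (h : ContDiff ℝ 1 f) (hc : HasCompactSupport f) :
    Integrable (d2 f) ∧ ∫ z, d2 f z = 0 := by
  obtain ⟨a1, a2⟩ := int_fd h hc 1
  obtain ⟨b1, b2⟩ := int_fd h hc I
  refine ⟨(a1.add (b1.const_mul I)).div_const 2, ?_⟩
  simp only [d2]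
  rw [integral_div, integral_add a1 (b1.const_mul I), integral_const_mul, a2, b2]
  simp

/-- The real derivative in terms of the Wirtinger derivatives. -/
lemma fd_wirt (φ : E n → ℂ) (x v : E n) :
    fderiv ℝ φ x v = ∑ k, (dz φ k x * v k + dzb φ k x * conj (v k)) := by
  have h : v = ∑ k, ((v k).re • EuclideanSpace.single k (1 : ℂ) +
      (v k).im • EuclideanSpace.single k I) := by
    ext j
    simp [Finset.sum_apply, Pi.single_apply, Finset.sum_add_distrib]
  conv_lhs => rw [h]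
  rw [map_sum]
  refine Finset.sum_congr rfl fun k _ => ?_
  rw [map_add, map_smul, map_smul, dz, dzb, real_smul, real_smul]
  generalize fderiv ℝ φ x (EuclideanSpace.single k 1) = a
  generalize fderiv ℝ φ x (EuclideanSpace.single k I) = b
  conv_rhs => rw [← re_add_im (v k)]
  simp only [map_add, map_mul, conj_ofReal, conj_I]
  linear_combination ((v k).im * b) * I_mul_I

/-- The chain rule along a holomorphic curve. -/
lemma chain {φ : E n → ℂ} {F : ℂ → E n} (hφ : DifferentiableAt ℝ φ (F z))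
    (hF : DifferentiableAt ℂ F z) :
    d1 (fun w => φ (F w)) z = ∑ k, dz φ k (F z) * deriv F z k ∧
      d2 (fun w => φ (F w)) z = ∑ k, dzb φ k (F z) * conj (deriv F z k) := by
  have h1 : ∀ v : ℂ, fderiv ℝ (fun w => φ (F w)) z v = fderiv ℝ φ (F z) (v • deriv F z) :=
    fun v => by
      have h2 := hφ.hasFDerivAt.comp z (hF.hasDerivAt.hasFDerivAt.restrictScalars ℝ)
      exact (congrArg (fun L : ℂ →L[ℝ] ℂ => L v) h2.fderiv).trans (by simp)
  simp only [d1, d2, h1, fd_wirt, Finset.mul_sum, ← Finset.sum_sub_distrib,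
    ← Finset.sum_add_distrib, Finset.sum_div, PiLp.smul_apply, smul_eq_mul, map_mul, conj_I,
    one_mul, map_one]
  constructor <;> refine Finset.sum_congr rfl fun k _ => ?_
  · linear_combination (-(dz φ k (F z) * deriv F z k) / 2 +
      dzb φ k (F z) * conj (deriv F z k) / 2) * I_mul_I
  · linear_combination ((dz φ k (F z) * deriv F z k) / 2 -
      dzb φ k (F z) * conj (deriv F z k) / 2) * I_mul_I

end Vale.Agent.P253
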