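import Vale.Agent.P253.Calc

/-!
Weights and cutoffs. `φ z = δ * log ‖z‖ + exp (δ * log ‖z‖)`,
`χ z = Real.smoothTransition (-δ * log ‖z‖ - 1)`. Write `L w = (log ‖w‖ : ℂ) = log (normSq w) / 2`; on
`w ≠ 0`: `d2 L w = 1 / (2 * conj w)`, `d1 L w = 1 / (2 * w)`, `d1 (d2 L) w = 0`, and for smooth
`θ : ℝ → ℝ`, `d2 (θ ∘ log ‖·‖) w = θ' * d2 L w` (chain rule for `fderiv ℝ`). Hence
`d1 (d2 φ) z = δ ^ 2 / 4 * exp (δ log ‖z‖) / ‖z‖ ^ 2` and
`normSq (d2 χ z) = (smoothTransition' * δ) ^ 2 / (4 ‖z‖ ^ 2)`; `smoothTransition'` is bounded by some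
`C₀` and vanishes outside `[0, 1]`; take `C = C₀ ^ 2 * exp 4`.
-/

namespace Vale.Agent.P253

open Complex Matrix Metric Set Filter Topology MeasureTheory
open scoped ContDiff ComplexConjugate ComplexOrder ENNReal

variable {n : ℕ}

lemma cut_log {w : ℂ} (hw : w ≠ 0) : ∃ L : ℂ →L[ℝ] ℝ,
    HasFDerivAt (fun w : ℂ => Real.log ‖w‖) L w ∧ L 1 = w.re / normSq w ∧
      L I = w.im / normSq w := by
  have h0 : w.re * w.re + w.im * w.im ≠ 0 := by
    rw [← normSq_apply]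
    exact (normSq_pos.2 hw).ne'
  have hr : HasFDerivAt (fun w : ℂ => w.re) reCLM w := reCLM.hasFDerivAt
  have hi : HasFDerivAt (fun w : ℂ => w.im) imCLM w := imCLM.hasFDerivAt
  have h1 := (((hr.fun_mul hr).fun_add (hi.fun_mul hi)).log h0).mul_const (1 / 2 : ℝ)
  have e : (fun w : ℂ => Real.log ‖w‖) =
      fun w : ℂ => Real.log (w.re * w.re + w.im * w.im) * (1 / 2 : ℝ) := by
    funext v
    rw [Complex.norm_def, Real.log_sqrt (normSq_nonneg v), normSq_apply]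
    ring
  refine ⟨_, e ▸ h1, ?_, ?_⟩
  · simp [normSq_apply]
    field_simp
    ring
  · simp [normSq_apply]
    field_simp
    ring

lemma cut_d {w : ℂ} (hw : w ≠ 0) {θ : ℝ → ℝ} {c : ℝ} (h : HasDerivAt θ c (Real.log ‖w‖)) :
    DifferentiableAt ℝ (fun v : ℂ => (θ (Real.log ‖v‖) : ℂ)) w ∧
      d1 (fun v : ℂ => (θ (Real.log ‖v‖) : ℂ)) w = c * (2 * w)⁻¹ ∧
      d2 (fun v : ℂ => (θ (Real.log ‖v‖) : ℂ)) w = c * conj ((2 * w)⁻¹) := by
  obtain ⟨L, hL, h1, h2⟩ := cut_log hw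
  have h3 : HasFDerivAt (fun v : ℂ => (θ (Real.log ‖v‖) : ℂ)) (ofRealCLM.comp (c • L)) w :=
    ofRealCLM.hasFDerivAt.comp w (h.comp_hasFDerivAt w hL)
  have hn : ((normSq w : ℝ) : ℂ) = w * conj w := (mul_conj w).symm
  have hc : conj w ≠ 0 := (map_ne_zero _).2 hw
  have a1 : (w.re : ℂ) + I * w.im = w := by
    rw [mul_comm]
    exact re_add_im w
  have a2 : (w.re : ℂ) - I * w.im = conj w := by
    apply Complex.ext <;> simp
  have e : ∀ v : ℂ, (ofRealCLM.comp (c • L)) v = ((c * L v : ℝ) : ℂ) := fun v => rfl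
  refine ⟨h3.differentiableAt, ?_, ?_⟩
  · rw [d1, h3.fderiv, e, e, h1, h2]
    push_cast
    rw [hn]
    field_simp
    linear_combination (c : ℂ) * a2
  · rw [d2, h3.fderiv, e, e, h1, h2, map_inv₀, map_mul, map_ofNat]
    push_cast
    rw [hn]
    field_simp
    linear_combination (c : ℂ) * a1

lemma cut_phi (δ : ℝ) {z : ℂ} (hz : z ≠ 0) :
    d1 (d2 fun w : ℂ => ((δ * Real.log ‖w‖ + Real.exp (δ * Real.log ‖w‖) : ℝ) : ℂ)) z =
      ((δ ^ 2 * Real.exp (δ * Real.log ‖z‖) * normSq ((2 * z)⁻¹) : ℝ) : ℂ) := by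
  have h1 : ∀ t : ℝ, HasDerivAt (fun t : ℝ => δ * t + Real.exp (δ * t))
      (δ + δ * Real.exp (δ * t)) t := fun t => by
    have h := ((hasDerivAt_id t).const_mul δ).fun_add ((hasDerivAt_id t).const_mul δ).exp
    simp only [id, mul_one] at h
    rwa [mul_comm (Real.exp _) δ] at h
  have h2 : ∀ t : ℝ, HasDerivAt (fun t : ℝ => δ + δ * Real.exp (δ * t))
      (δ ^ 2 * Real.exp (δ * t)) t := fun t => by
    have h := (((hasDerivAt_id t).const_mul δ).exp.const_mul δ).const_add δ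
    simp only [id, mul_one] at h
    rwa [show δ * (Real.exp (δ * t) * δ) = δ ^ 2 * Real.exp (δ * t) by ring] at h
  have h3 : (d2 fun w : ℂ => ((δ * Real.log ‖w‖ + Real.exp (δ * Real.log ‖w‖) : ℝ) : ℂ)) =ᶠ[𝓝 z]
      fun w : ℂ => ((δ + δ * Real.exp (δ * Real.log ‖w‖) : ℝ) : ℂ) * conj ((2 * w)⁻¹) := by
    filter_upwards [isOpen_ne.mem_nhds hz] with w hw
    exact (cut_d hw (h1 _)).2.2
  have h4 : DifferentiableAt ℂ (fun w : ℂ => (2 * w)⁻¹) z :=
    (differentiableAt_id.const_mul 2).inv (mul_ne_zero two_ne_zero hz)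
  obtain ⟨b1, b2, -⟩ := cut_d hz (h2 _)
  rw [d1_congr h3, d1_mul b1 (diff_conj (h4.restrictScalars ℝ)), b2, d1_conj, d2_holo h4,
    map_zero, mul_zero, add_zero, mul_assoc, mul_conj]
  push_cast
  ring

lemma cut_der : ∃ C : ℝ, 0 ≤ C ∧ ∀ s : ℝ, deriv Real.smoothTransition s ^ 2 ≤ C ∧
    (s < 0 ∨ 1 < s → deriv Real.smoothTransition s = 0) := by
  have hc : Continuous (deriv Real.smoothTransition) :=
    (Real.smoothTransition.contDiff (n := 1)).continuous_deriv le_rfl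
  obtain ⟨C, hC⟩ := (isCompact_Icc (a := (0 : ℝ)) (b := 1)).exists_bound_of_continuousOn
    hc.continuousOn
  have h0 : ∀ s : ℝ, s < 0 ∨ 1 < s → deriv Real.smoothTransition s = 0 := by
    rintro s (h | h)
    · have : Real.smoothTransition =ᶠ[𝓝 s] fun _ => 0 := by
        filter_upwards [gt_mem_nhds h] with t ht
        exact Real.smoothTransition.zero_of_nonpos ht.le
      rw [this.deriv_eq, deriv_const]
    · have : Real.smoothTransition =ᶠ[𝓝 s] fun _ => 1 := by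
        filter_upwards [lt_mem_nhds h] with t ht
        exact Real.smoothTransition.one_of_one_le ht.le
      rw [this.deriv_eq, deriv_const]
  refine ⟨C ^ 2, sq_nonneg _, fun s => ⟨?_, h0 s⟩⟩
  by_cases h : s < 0 ∨ 1 < s
  · rw [h0 s h]
    nlinarith [sq_nonneg C]
  · rw [not_or, not_lt, not_lt] at h
    have h1 := hC s h
    rw [Real.norm_eq_abs] at h1
    exact sq_le_sq' (abs_le.1 h1).1 (abs_le.1 h1).2

theorem cut : ∃ C : ℝ, 0 ≤ C ∧ ∀ δ : ℝ, 0 < δ → ∃ φ χ : ℂ → ℝ, ContDiffOn ℝ ∞ φ (pd 1) ∧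
    ContDiffOn ℝ ∞ χ (pd 1) ∧ ∀ z ∈ pd 1, 0 ≤ (d1 (d2 fun w => (φ w : ℂ)) z).re ∧
      φ z ≤ δ * Real.log ‖z‖ + 1 ∧ 0 ≤ χ z ∧ χ z ≤ 1 ∧ (‖z‖ < Real.exp (-2 / δ) → χ z = 1) ∧
      (Real.exp (-1 / δ) < ‖z‖ → χ z = 0) ∧
      normSq (d2 (fun w => (χ w : ℂ)) z) * Real.exp (-φ z) ≤ (d1 (d2 fun w => (φ w : ℂ)) z).re *
        if ‖z‖ ≤ Real.exp (-1 / δ) then C else 0 := by
  obtain ⟨C, hC0, hC⟩ := cut_der
  refine ⟨C * Real.exp 4, by positivity, fun δ hδ => ?_⟩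
  have hl : ContDiffOn ℝ ∞ (fun z : ℂ => Real.log ‖z‖) (pd 1) := fun z hz =>
    ((contDiffAt_norm ℂ (mem_pd.1 hz).2).log (norm_ne_zero_iff.2 (mem_pd.1 hz).2)).contDiffWithinAt
  refine ⟨fun w => δ * Real.log ‖w‖ + Real.exp (δ * Real.log ‖w‖),
    fun w => Real.smoothTransition (-δ * Real.log ‖w‖ - 1),
    (contDiffOn_const.mul hl).add (contDiffOn_const.mul hl).exp,
    Real.smoothTransition.contDiff.comp_contDiffOn
      ((contDiffOn_const.mul hl).sub contDiffOn_const), fun z hz => ?_⟩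
  obtain ⟨hz1, hz0⟩ := mem_pd.1 hz
  have hp : 0 < ‖z‖ := norm_pos_iff.2 hz0
  have hlog : Real.log ‖z‖ < 0 := Real.log_neg hp hz1
  have hA := normSq_nonneg ((2 * z)⁻¹)
  have hout : Real.exp (-1 / δ) < ‖z‖ → -δ * Real.log ‖z‖ - 1 < 0 := fun h => by
    have h1 := (Real.lt_log_iff_exp_lt hp).2 h
    rw [div_lt_iff₀ hδ] at h1
    linarith
  rw [cut_phi δ hz0, ofReal_re]
  refine ⟨by positivity, ?_, Real.smoothTransition.nonneg _, Real.smoothTransition.le_one _,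
    fun h => ?_, fun h => Real.smoothTransition.zero_of_nonpos (hout h).le, ?_⟩
  · have : Real.exp (δ * Real.log ‖z‖) ≤ 1 :=
      Real.exp_le_one_iff.2 (mul_nonpos_of_nonneg_of_nonpos hδ.le hlog.le)
    linarith
  · have h1 := (Real.log_lt_iff_lt_exp hp).2 h
    rw [lt_div_iff₀ hδ] at h1
    exact Real.smoothTransition.one_of_one_le (by linarith)
  · have h1 : HasDerivAt (fun t : ℝ => -δ * t - 1) (-δ) (Real.log ‖z‖) := by
      simpa using ((hasDerivAt_id (Real.log ‖z‖)).const_mul (-δ)).sub_const 1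
    have h7 := ((Real.smoothTransition.contDiff (n := 1)).differentiable one_ne_zero
      (-δ * Real.log ‖z‖ - 1)).hasDerivAt
    have h2 : HasDerivAt (fun t : ℝ => Real.smoothTransition (-δ * t - 1))
        (deriv Real.smoothTransition (-δ * Real.log ‖z‖ - 1) * -δ) (Real.log ‖z‖) :=
      HasDerivAt.comp (h₂ := Real.smoothTransition) (h := fun t : ℝ => -δ * t - 1)
        (Real.log ‖z‖) h7 h1
    rw [(cut_d hz0 h2).2.2, map_mul, normSq_conj, normSq_ofReal]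
    obtain ⟨c1, c2⟩ := hC (-δ * Real.log ‖z‖ - 1)
    split_ifs with h
    · by_cases h3 : 1 < -δ * Real.log ‖z‖ - 1
      · rw [c2 (Or.inr h3)]
        simp only [zero_mul]
        positivity
      · have h4 : Real.exp (-(δ * Real.log ‖z‖ + Real.exp (δ * Real.log ‖z‖))) ≤
            Real.exp (δ * Real.log ‖z‖) * Real.exp 4 := by
          rw [← Real.exp_add, Real.exp_le_exp]
          have := Real.exp_pos (δ * Real.log ‖z‖)
          linarith [not_lt.1 h3]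
        have h5 := mul_le_mul c1 h4 (Real.exp_pos _).le hC0
        have h6 := mul_le_mul_of_nonneg_left h5 (mul_nonneg (sq_nonneg δ) hA)
        calc _ = _ := by ring
          _ ≤ _ := h6
          _ = _ := by ring
    · rw [c2 (Or.inl (hout (not_le.1 h)))]
      simp

end Vale.Agent.P253
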