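import Vale.Agent.P253.Calc

/-!
Completeness. Let `s k = ρ / (k + 2)`, `x k = F (s k * e)`. For `k, l` the path
`γ t = F ((s k + t * (s l - s k)) * e)` is `C¹`, stays in `Ω` on `[0, 1]`, and
`deriv γ t i = (s l - s k) * e * deriv F _ i`, `nsq G (c • v) = ‖c‖ ^ 2 * nsq G v`, so by the affine change
of variables (`lintegral_comp_mul..`, `Real.map_volume_mul_left`, or
`lintegral_image_eq_lintegral_abs_deriv_mul`) its length is at most the integral over `Ioo 0 (s N)`
(endpoints are null) for `k, l > N`, which tends to `0` (`tendsto_setLIntegral_zero`). So `x k → p ∈ Ω`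
and `x k → F 0`.
-/

namespace Vale.Agent.P253

open Complex Matrix Metric Set Filter Topology MeasureTheory
open scoped ContDiff ComplexConjugate ComplexOrder ENNReal

variable {n : ℕ}

lemma fin_nsq (G : M n) (c : ℂ) (v : Fin n → ℂ) :
    nsq G (fun i => c * v i) = ‖c‖ ^ 2 * nsq G v := by
  have h : ∑ i, ∑ j, G i j * (c * v i) * conj (c * v j) =
      ((‖c‖ ^ 2 : ℝ) : ℂ) * ∑ i, ∑ j, G i j * v i * conj (v j) := by
    rw [← Complex.normSq_eq_norm_sq, ← Complex.mul_conj, Finset.mul_sum]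
    refine Finset.sum_congr rfl fun i _ => ?_
    rw [Finset.mul_sum]
    refine Finset.sum_congr rfl fun j _ => ?_
    rw [map_mul]
    ring
  rw [nsq, h, re_ofReal_mul, nsq]

lemma fin_len {Ω : Set (E n)} {g : E n → M n} {F : ℂ → E n} (hF : Differentiable ℂ F) {c : ℝ}
    {e : ℂ} (he : ‖e‖ = 1) (hin : ∀ s ∈ Ioo (0 : ℝ) c, F (s * e) ∈ Ω) {a b : ℝ}
    (ha : a ∈ Ioo (0 : ℝ) c) (hb : b ∈ Ioo (0 : ℝ) c) :
    gdist Ω g (F (a * e)) (F (b * e)) ≤ ∫⁻ s in Ioo (0 : ℝ) c,
      ENNReal.ofReal √(nsq (g (F (s * e))) fun i => deriv F (s * e) i) := by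
  set σ : ℝ → ℝ := fun t => a + t * (b - a) with hσ
  set γ : ℝ → E n := fun t => F (σ t * e) with hγ
  have hm : ∀ t ∈ Icc (0 : ℝ) 1, σ t ∈ Ioo (0 : ℝ) c := fun t ht => by
    have h := (convex_Ioo (0 : ℝ) c).add_smul_sub_mem ha hb ht
    simpa only [smul_eq_mul] using h
  have hd : ∀ t, HasDerivAt σ (b - a) t := fun t => by
    have h := ((hasDerivAt_id t).mul_const (b - a)).const_add a
    rw [one_mul] at h
    exact h
  have hd2 : ∀ t, HasDerivAt γ ((((b - a : ℝ) : ℂ) * e) • deriv F (σ t * e)) t := fun t =>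
    (hF (σ t * e)).hasDerivAt.scomp t ((hd t).ofReal_comp.mul_const e)
  have hcd : ContDiff ℝ 1 γ := by
    refine ((hF.contDiff (n := 1)).restrict_scalars ℝ).comp (ContDiff.mul ?_ contDiff_const)
    exact ofRealCLM.contDiff.comp (f := σ) (contDiff_const.add (contDiff_id.mul contDiff_const))
  have h0 : γ 0 = F (a * e) := by simp [hγ, hσ]
  have h1 : γ 1 = F (b * e) := by simp [hγ, hσ]
  have hle : gdist Ω g (F (a * e)) (F (b * e)) ≤ len g γ :=
    iInf_le_of_le γ (iInf_le_of_le hcd (iInf_le_of_le (fun t ht => hin _ (hm t ht))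
      (iInf_le_of_le h0 (iInf_le_of_le h1 le_rfl))))
  refine hle.trans ?_
  have e1 : len g γ = ∫⁻ t in Icc (0 : ℝ) 1, ENNReal.ofReal |b - a| *
      ENNReal.ofReal √(nsq (g (F (σ t * e))) fun i => deriv F (σ t * e) i) := by
    refine lintegral_congr fun t => ?_
    rw [(hd2 t).deriv, ← ENNReal.ofReal_mul (abs_nonneg _)]
    simp only [PiLp.smul_apply, smul_eq_mul]
    rw [fin_nsq, Real.sqrt_mul (sq_nonneg _), Real.sqrt_sq (norm_nonneg _), norm_mul, he, mul_one,
      norm_real, Real.norm_eq_abs]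
  rw [e1]
  by_cases hab : b - a = 0
  · simp [hab]
  rw [← lintegral_image_eq_lintegral_abs_deriv_mul measurableSet_Icc
    (fun t _ => (hd t).hasDerivWithinAt)
    (fun t _ u _ h => mul_right_cancel₀ hab (add_left_cancel h))
    fun s : ℝ => ENNReal.ofReal √(nsq (g (F (s * e))) fun i => deriv F (s * e) i)]
  exact lintegral_mono_set (image_subset_iff.2 hm)

theorem fin_mem {Ω : Set (E n)} (hΩ : IsOpen Ω) {g : E n → M n} (hg : IsKaehler Ω g)
    (hc : IsCompleteM Ω g) {F : ℂ → E n}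
    (hF : Differentiable ℂ F) {ρ : ℝ} (hρ : 0 < ρ) {e : ℂ} (he : ‖e‖ = 1)
    (hin : ∀ s ∈ Ioo (0 : ℝ) ρ, F (s * e) ∈ Ω)
    (hi : ∫⁻ s in Ioo (0 : ℝ) ρ, ENNReal.ofReal √(nsq (g (F (s * e))) fun i => deriv F (s * e) i) < ⊤) :
    F 0 ∈ Ω := by
  set s : ℕ → ℝ := fun k => ρ / ((k : ℝ) + 2) with hs
  have hs0 : ∀ k, 0 < s k := fun k => by positivity
  have hlt : ∀ k l : ℕ, k < l → s l < s k := fun k l h =>
    div_lt_div_of_pos_left hρ (by positivity) (by have : (k : ℝ) < l := by exact_mod_cast h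
                                                  linarith)
  have hρ' : ∀ k, s k < ρ := fun k =>
    div_lt_self hρ (by have : (0 : ℝ) ≤ k := k.cast_nonneg
                       linarith)
  have ht : Tendsto s atTop (𝓝 0) :=
    tendsto_const_nhds.div_atTop (tendsto_atTop_add_const_right _ _ tendsto_natCast_atTop_atTop)
  have hsub : ∀ k, Ioo 0 (s k) ⊆ Ioo 0 ρ := fun k => Ioo_subset_Ioo_right (hρ' k).le
  have h1 := tendsto_setLIntegral_zero hi.ne (l := atTop) (s := fun k => Ioo 0 (s k)) (by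
    have h2 : Tendsto (fun k => ENNReal.ofReal (s k)) atTop (𝓝 0) := by
      simpa using ENNReal.tendsto_ofReal ht
    refine h2.congr fun k => ?_
    rw [Function.comp_apply, Measure.restrict_apply measurableSet_Ioo,
      inter_eq_left.2 (hsub k), Real.volume_Ioo, sub_zero])
  obtain ⟨p, hp, hx⟩ := hc (fun k => F (s k * e)) (fun k => hin _ ⟨hs0 k, hρ' k⟩) fun ε hε => by
    obtain ⟨N, hN⟩ := (h1.eventually (gt_mem_nhds hε)).exists
    rw [Measure.restrict_restrict measurableSet_Ioo, inter_eq_left.2 (hsub N)] at hN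
    exact ⟨N + 1, fun k hk l hl => (fin_len hF he (fun u hu => hin u (hsub N hu))
      ⟨hs0 k, hlt N k hk⟩ ⟨hs0 l, hlt N l hl⟩).trans_lt hN⟩
  have h3 : Tendsto (fun k => F (s k * e)) atTop (𝓝 (F 0)) := by
    refine (hF.continuous.tendsto 0).comp ?_
    simpa using (tendsto_ofReal_iff.2 ht).mul_const e
  rwa [tendsto_nhds_unique h3 hx]

end Vale.Agent.P253
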