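import Vale.Agent.P253.Calc

/-!
The dual metric `K = G⁻¹`. Smooth: `Matrix.inv_def`, `Ring.inverse_eq_inv`, entries of the adjugate
and `det` are polynomials in the entries (`Matrix.adjugate_apply`, `Matrix.det_apply`), `det ≠ 0`.
Product rules `m1 (A * B) = m1 A * B + A * m1 B` (same for `m2`) on `U`. From `K * G = 1` near `z`:
`m1 K = -K * m1 G * K`, `m2 K = -K * m2 G * K` on `U`, hence
`m1 (m2 K) = K * m1 G * K * m2 G * K + K * m2 G * K * m1 G * K - K * m1 (m2 G) * K`. With `y = K t`,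
`r = s - m1 G y` and `m2 G = (m1 G)ᴴ` (`d2_conj`, `G` Hermitian near `z`):
`blk K z t s = re (hf (-m1 (m2 G) + m1 G * K * m2 G) y y) + re (hf K r r) ≥ 0`.
-/

namespace Vale.Agent.P253

open Complex Matrix Metric Set Filter Topology MeasureTheory
open scoped ContDiff ComplexConjugate ComplexOrder ENNReal

variable {n : ℕ}

/-- Smooth entries. -/
def inv_S (U : Set ℂ) (A : ℂ → M n) : Prop := ∀ i j, ContDiffOn ℝ ∞ (fun z => A z i j) U

section Aux

variable {U : Set ℂ} {A B : ℂ → M n} {z : ℂ}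

lemma inv_mulS (hA : inv_S U A) (hB : inv_S U B) : inv_S U fun z => A z * B z := fun i j => by
  simp only [Matrix.mul_apply]
  exact ContDiffOn.sum fun k _ => (hA i k).mul (hB k j)

lemma inv_m2S (hU : IsOpen U) (hA : inv_S U A) : inv_S U (m2 A) := fun i j => d2_smooth hU (hA i j)

lemma inv_m1_mul (hU : IsOpen U) (hA : inv_S U A) (hB : inv_S U B) (hz : z ∈ U) :
    m1 (fun z => A z * B z) z = m1 A z * B z + A z * m1 B z := by
  ext i j
  simp only [m1, Matrix.of_apply, Matrix.mul_apply, Matrix.add_apply]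
  rw [← Finset.sum_add_distrib]
  refine (d1_sum (F := fun k w => A w i k * B w k j) _ fun k _ =>
    (diffAt hU (hA i k) hz).mul (diffAt hU (hB k j) hz)).trans ?_
  exact Finset.sum_congr rfl fun k _ => d1_mul (diffAt hU (hA i k) hz) (diffAt hU (hB k j) hz)

lemma inv_m2_mul (hU : IsOpen U) (hA : inv_S U A) (hB : inv_S U B) (hz : z ∈ U) :
    m2 (fun z => A z * B z) z = m2 A z * B z + A z * m2 B z := by
  ext i j
  simp only [m2, Matrix.of_apply, Matrix.mul_apply, Matrix.add_apply]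
  rw [← Finset.sum_add_distrib]
  refine (d2_sum (F := fun k w => A w i k * B w k j) _ fun k _ =>
    (diffAt hU (hA i k) hz).mul (diffAt hU (hB k j) hz)).trans ?_
  exact Finset.sum_congr rfl fun k _ => d2_mul (diffAt hU (hA i k) hz) (diffAt hU (hB k j) hz)

lemma inv_m1_congr (hU : IsOpen U) (h : ∀ w ∈ U, A w = B w) (hz : z ∈ U) : m1 A z = m1 B z := by
  ext i j
  exact d1_congr ((hU.eventually_mem hz).mono fun w hw => by simp only [h w hw])

lemma inv_m2_congr (hU : IsOpen U) (h : ∀ w ∈ U, A w = B w) (hz : z ∈ U) : m2 A z = m2 B z := by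
  ext i j
  exact d2_congr ((hU.eventually_mem hz).mono fun w hw => by simp only [h w hw])

lemma inv_detS (hA : inv_S U A) : ContDiffOn ℝ ∞ (fun z => (A z).det) U := by
  simp only [Matrix.det_apply']
  exact ContDiffOn.sum fun σ _ => contDiffOn_const.mul (contDiffOn_prod fun i _ => hA _ _)

lemma inv_invS (hA : inv_S U A) (hd : ∀ z ∈ U, (A z).det ≠ 0) : inv_S U fun z => (A z)⁻¹ := by
  intro i j
  simp only [Matrix.inv_def, Ring.inverse_eq_inv, Matrix.smul_apply, smul_eq_mul,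
    Matrix.adjugate_apply]
  refine ((inv_detS hA).inv hd).mul (inv_detS (A := fun z => (A z).updateRow j (Pi.single i 1))
    fun a b => ?_)
  by_cases h : a = j
  · subst h
    simp only [Matrix.updateRow_self]
    exact contDiffOn_const
  · simp only [Matrix.updateRow_ne h]
    exact hA a b

lemma inv_alg {K a c : M n} (hK : Kᴴ = K) (t s : Fin n → ℂ) :
    hf (K * a * K * aᴴ * K + K * aᴴ * K * a * K - K * c * K) t t + hf (-(K * a * K)) s t +
      hf (-(K * aᴴ * K)) t s + hf K s s =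
    hf (-c + a * K * aᴴ) (K *ᵥ t) (K *ᵥ t) + hf K (s - a *ᵥ K *ᵥ t) (s - a *ᵥ K *ᵥ t) := by
  have e : ∀ (X : M n) (u v : Fin n → ℂ), star (X *ᵥ u) ⬝ᵥ v = star u ⬝ᵥ Xᴴ *ᵥ v := fun X u v => by
    rw [Matrix.star_mulVec, Matrix.dotProduct_mulVec]
  simp only [hf, star_sub, sub_dotProduct, Matrix.mulVec_sub, dotProduct_sub, e, hK,
    Matrix.add_mulVec, Matrix.sub_mulVec, Matrix.neg_mulVec, Matrix.mulVec_add, Matrix.mulVec_neg,
    dotProduct_add, dotProduct_neg, ← Matrix.mulVec_mulVec]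
  ring

end Aux

theorem inv_neg {U : Set ℂ} (hU : IsOpen U) {G : ℂ → M n} (h : Sm U G) (hp : Pos U G) :
    Sm U (fun z => (G z)⁻¹) ∧ Neg U (fun z => (G z)⁻¹) fun _ => 0 := by
  have hG : inv_S U G := h.smooth
  have hd : ∀ z ∈ U, IsUnit (G z).det := fun z hz =>
    (Matrix.isUnit_iff_isUnit_det _).1 (h.pos z hz).isUnit
  obtain ⟨K, hK⟩ : ∃ K : ℂ → M n, K = fun z => (G z)⁻¹ := ⟨_, rfl⟩
  have k0 : ∀ z, K z = (G z)⁻¹ := fun z => by rw [hK]
  have hS : inv_S U K := hK ▸ inv_invS hG fun z hz => (hd z hz).ne_zero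
  have kp : ∀ z ∈ U, (K z).PosDef := fun z hz => k0 z ▸ (h.pos z hz).inv
  have k1 : ∀ z ∈ U, K z * G z = 1 := fun z hz => k0 z ▸ Matrix.nonsing_inv_mul _ (hd z hz)
  have k2 : ∀ z ∈ U, G z * K z = 1 := fun z hz => k0 z ▸ Matrix.mul_nonsing_inv _ (hd z hz)
  have key : ∀ z ∈ U, ∀ X Y : M n, X * G z + K z * Y = 0 → X = -(K z * Y * K z) :=
    fun z hz X Y e => by
      have := congrArg (· * K z) e
      simp only [add_mul, mul_assoc, k2 z hz, mul_one, zero_mul] at this
      rw [mul_assoc]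
      exact eq_neg_of_add_eq_zero_left this
  have a1 : ∀ z ∈ U, m1 K z = -(K z * m1 G z * K z) := fun z hz => key z hz _ _ (by
    rw [← inv_m1_mul hU hS hG hz, inv_m1_congr hU k1 hz]
    ext i j
    exact d1_const _)
  have a2 : ∀ z ∈ U, m2 K z = -(K z * m2 G z * K z) := fun z hz => key z hz _ _ (by
    rw [← inv_m2_mul hU hS hG hz, inv_m2_congr hU k1 hz]
    ext i j
    exact d2_const _)
  rw [← hK]
  refine ⟨⟨hS, kp⟩, fun z hz t s => ?_⟩
  have a3 : m2 G z = (m1 G z)ᴴ := by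
    ext i j
    rw [Matrix.conjTranspose_apply]
    refine (d2_congr ((hU.eventually_mem hz).mono fun w hw => ?_)).trans (d2_conj (fun w => G w j i) z)
    exact ((h.pos w hw).isHermitian.apply i j).symm
  have a4 : m1 (m2 K) z = K z * m1 G z * K z * (m1 G z)ᴴ * K z +
      K z * (m1 G z)ᴴ * K z * m1 G z * K z - K z * m1 (m2 G) z * K z := by
    have e : ∀ w ∈ U, m2 K w * G w = -1 * (K w * m2 G w) := fun w hw => by
      rw [a2 w hw, neg_mul, mul_assoc, k1 w hw, mul_one, neg_one_mul]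
    have c1 : inv_S U fun _ => (-1 : M n) := fun _ _ => contDiffOn_const
    have c2 : m1 (fun _ => (-1 : M n)) z = 0 := by
      ext i j
      exact d1_const _
    have := inv_m1_congr hU e hz
    rw [inv_m1_mul hU (inv_m2S hU hS) hG hz, inv_m1_mul hU c1 (inv_mulS hS (inv_m2S hU hG)) hz,
      inv_m1_mul hU hS (inv_m2S hU hG) hz, c2, a1 z hz, a2 z hz, a3] at this
    have e2 := congrArg (· * K z) this
    simp only [add_mul, mul_assoc (m1 (m2 K) z), k2 z hz, mul_one] at e2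
    rw [eq_sub_of_add_eq e2]
    noncomm_ring
  have p1 := hp z hz (K z *ᵥ t)
  rw [← k0, a3] at p1
  have p2 := ((kp z hz).posSemidef.dotProduct_mulVec_nonneg (s - m1 G z *ᵥ K z *ᵥ t)).1
  rw [zero_mul, blk, a4, a1 z hz, a2 z hz, a3, inv_alg (kp z hz).isHermitian, Complex.add_re]
  exact add_nonneg p1 p2

end Vale.Agent.P253
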