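import Vale.Agent.P253.Calc

/-!
The module `JJ G`. Monotone in `ρ` (`lintegral_mono_set`) and in `δ` (`‖z‖ < 1`).
`nsq G (u + v) ≤ 2 * nsq G u + 2 * nsq G v` (parallelogram, `nsq_nonneg`),
`nsq G (a • u) = ‖a‖ ^ 2 * nsq G u`, an analytic function is continuous and bounded on a small ball;
measurability from continuity on the open set `pd ρ` (`lintegral_add_left'`).
-/

namespace Vale.Agent.P253

open Complex Matrix Metric Set Filter Topology MeasureTheory
open scoped ContDiff ComplexConjugate ComplexOrder ENNReal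

variable {n : ℕ}

lemma jp_par (G : M n) (u v : Fin n → ℂ) :
    nsq G (u + v) + nsq G (u - v) = 2 * nsq G u + 2 * nsq G v := by
  simp only [nsq, Complex.re_sum, Finset.mul_sum, ← Finset.sum_add_distrib]
  refine Finset.sum_congr rfl fun i _ => Finset.sum_congr rfl fun j _ => ?_
  simp only [Pi.add_apply, Pi.sub_apply, map_add, map_sub, mul_add, mul_sub, add_mul, sub_mul,
    Complex.add_re, Complex.sub_re]
  ring

lemma jp_smul (G : M n) (a : ℂ) (u : Fin n → ℂ) : nsq G (a • u) = ‖a‖ ^ 2 * nsq G u := by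
  simp only [nsq, Complex.re_sum, Finset.mul_sum]
  refine Finset.sum_congr rfl fun i _ => Finset.sum_congr rfl fun j _ => ?_
  rw [← Complex.re_ofReal_mul, Complex.ofReal_pow, ← Complex.mul_conj']
  simp only [Pi.smul_apply, smul_eq_mul, map_mul]
  congr 1
  ring

lemma jp_sub {r s : ℝ} (h : r ≤ s) : pd r ⊆ pd s := fun _ hz =>
  mem_pd.2 ⟨(mem_pd.1 hz).1.trans_le h, (mem_pd.1 hz).2⟩

lemma jp_mono {G : ℂ → M n} (h : Sm (pd 1) G) (u : ℂ → Fin n → ℂ) {δ δ' ρ ρ' : ℝ} (hδ : δ' ≤ δ)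
    (hρ : ρ' ≤ ρ) (h1 : ρ ≤ 1) :
    ∫⁻ z in pd ρ', ENNReal.ofReal (nsq (G z) (u z) * ‖z‖ ^ (-δ')) ≤
      ∫⁻ z in pd ρ, ENNReal.ofReal (nsq (G z) (u z) * ‖z‖ ^ (-δ)) := by
  refine (lintegral_mono_set (jp_sub hρ)).trans
    (setLIntegral_mono' (pd_open ρ).measurableSet fun z hz => ?_)
  have hz' := mem_pd.1 hz
  refine ENNReal.ofReal_le_ofReal
    (mul_le_mul_of_nonneg_left ?_ (nsq_nonneg (h.pos z (jp_sub h1 hz)) _))
  exact Real.rpow_le_rpow_of_exponent_ge (norm_pos_iff.2 hz'.2) (by linarith [hz'.1]) (by linarith)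

lemma jp_meas {G : ℂ → M n} (h : Sm (pd 1) G) {u : ℂ → Fin n → ℂ} (δ : ℝ) {ρ : ℝ} (h1 : ρ ≤ 1)
    (hu : ContinuousOn u (pd ρ)) : AEMeasurable
      (fun z => ENNReal.ofReal (nsq (G z) (u z) * ‖z‖ ^ (-δ))) (volume.restrict (pd ρ)) := by
  refine AEMeasurable.ennreal_ofReal (ContinuousOn.aemeasurable ?_ (pd_open ρ).measurableSet)
  have hi : ∀ i, ContinuousOn (fun z => u z i) (pd ρ) := fun i =>
    (continuous_apply i).comp_continuousOn hu
  refine ContinuousOn.mul ?_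
    (continuous_norm.continuousOn.rpow_const fun z hz => Or.inl (norm_ne_zero_iff.2 (mem_pd.1 hz).2))
  refine Complex.continuous_re.comp_continuousOn (continuousOn_finsetSum _ fun i _ =>
    continuousOn_finsetSum _ fun j _ => ?_)
  exact (((h.smooth i j).continuousOn.mono (jp_sub h1)).mul (hi i)).mul
    (Complex.continuous_conj.comp_continuousOn (hi j))

theorem jj_props {G : ℂ → M n} (h : Sm (pd 1) G) : JJ G 0 ∧
    (∀ u v, JJ G u → JJ G v → JJ G (u + v)) ∧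
    (∀ (a : ℂ → ℂ) u, AnalyticAt ℂ a 0 → JJ G u → JJ G fun z => a z • u z) ∧
    ∀ u v, u =ᶠ[𝓝 0] v → JJ G u → JJ G v := by
  refine ⟨⟨1, 1, one_pos, one_pos, le_rfl, continuousOn_const, by simp [nsq]⟩, ?_, ?_, ?_⟩
  · rintro u v ⟨δ, ρ, hδ, hρ, h1, hu, iu⟩ ⟨δ', ρ', hδ', hρ', h1', hv, iv⟩
    have hu' := hu.mono (jp_sub (min_le_left ρ ρ'))
    have hv' := hv.mono (jp_sub (min_le_right ρ ρ'))
    have h2 : min ρ ρ' ≤ 1 := (min_le_left _ _).trans h1
    have iu' := (jp_mono h u (min_le_left δ δ') (min_le_left ρ ρ') h1).trans_lt iu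
    have iv' := (jp_mono h v (min_le_right δ δ') (min_le_right ρ ρ') h1').trans_lt iv
    refine ⟨min δ δ', min ρ ρ', lt_min hδ hδ', lt_min hρ hρ', h2, hu'.add hv', ?_⟩
    have k : ∫⁻ z in pd (min ρ ρ'), ENNReal.ofReal (nsq (G z) ((u + v) z) * ‖z‖ ^ (-min δ δ')) ≤
        ∫⁻ z in pd (min ρ ρ'), (2 * ENNReal.ofReal (nsq (G z) (u z) * ‖z‖ ^ (-min δ δ')) +
          2 * ENNReal.ofReal (nsq (G z) (v z) * ‖z‖ ^ (-min δ δ'))) := by
      refine setLIntegral_mono' (pd_open _).measurableSet fun z hz => ?_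
      have hp := h.pos z (jp_sub h2 hz)
      have hw : 0 ≤ ‖z‖ ^ (-min δ δ') := Real.rpow_nonneg (norm_nonneg z) _
      have e2 : (2 : ℝ≥0∞) = ENNReal.ofReal 2 := by simp
      rw [e2, ← ENNReal.ofReal_mul zero_le_two, ← ENNReal.ofReal_mul zero_le_two]
      refine le_trans (ENNReal.ofReal_le_ofReal ?_) ENNReal.ofReal_add_le
      have h3 := jp_par (G z) (u z) (v z)
      have h4 := nsq_nonneg hp (u z - v z)
      have h5 : nsq (G z) (u z + v z) ≤ 2 * nsq (G z) (u z) + 2 * nsq (G z) (v z) := by linarith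
      have h6 := mul_le_mul_of_nonneg_right h5 hw
      rw [Pi.add_apply]
      linarith
    refine k.trans_lt ?_
    rw [lintegral_add_left' ((jp_meas h _ h2 hu').const_mul 2),
      lintegral_const_mul' _ _ ENNReal.ofNat_ne_top, lintegral_const_mul' _ _ ENNReal.ofNat_ne_top]
    exact ENNReal.add_lt_top.2 ⟨ENNReal.mul_lt_top ENNReal.ofNat_lt_top iu',
      ENNReal.mul_lt_top ENNReal.ofNat_lt_top iv'⟩
  · rintro a u ha ⟨δ, ρ, hδ, hρ, h1, hu, iu⟩
    obtain ⟨r, hr, hb⟩ := Metric.eventually_nhds_iff_ball.1 (ha.eventually_analyticAt.and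
      (ha.continuousAt.norm.eventually (gt_mem_nhds (lt_add_one ‖a 0‖))))
    have hs : ∀ z ∈ pd (min ρ r), z ∈ ball (0 : ℂ) r := fun z hz => (jp_sub (min_le_right ρ r) hz).1
    have h2 : min ρ r ≤ 1 := (min_le_left _ _).trans h1
    have iu' := (jp_mono h u (le_refl δ) (min_le_left ρ r) h1).trans_lt iu
    have hc : ContinuousOn a (pd (min ρ r)) := fun z hz =>
      (hb z (hs z hz)).1.continuousAt.continuousWithinAt
    refine ⟨δ, min ρ r, hδ, lt_min hρ hr, h2, hc.smul (hu.mono (jp_sub (min_le_left ρ r))), ?_⟩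
    have k : ∫⁻ z in pd (min ρ r), ENNReal.ofReal (nsq (G z) (a z • u z) * ‖z‖ ^ (-δ)) ≤
        ∫⁻ z in pd (min ρ r), ENNReal.ofReal ((‖a 0‖ + 1) ^ 2) *
          ENNReal.ofReal (nsq (G z) (u z) * ‖z‖ ^ (-δ)) := by
      refine setLIntegral_mono' (pd_open _).measurableSet fun z hz => ?_
      have hp := h.pos z (jp_sub h2 hz)
      have hw : 0 ≤ ‖z‖ ^ (-δ) := Real.rpow_nonneg (norm_nonneg z) _
      rw [← ENNReal.ofReal_mul (sq_nonneg _), jp_smul, mul_assoc]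
      exact ENNReal.ofReal_le_ofReal (mul_le_mul_of_nonneg_right
        (pow_le_pow_left₀ (norm_nonneg _) (hb z (hs z hz)).2.le 2)
        (mul_nonneg (nsq_nonneg hp _) hw))
    refine k.trans_lt ?_
    rw [lintegral_const_mul' _ _ ENNReal.ofReal_ne_top]
    exact ENNReal.mul_lt_top ENNReal.ofReal_lt_top iu'
  · rintro u v e ⟨δ, ρ, hδ, hρ, h1, hu, iu⟩
    obtain ⟨r, hr, hb⟩ := Metric.eventually_nhds_iff_ball.1 e
    have hs : ∀ z ∈ pd (min ρ r), v z = u z := fun z hz =>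
      (hb z (jp_sub (min_le_right ρ r) hz).1).symm
    have iu' := (jp_mono h u (le_refl δ) (min_le_left ρ r) h1).trans_lt iu
    refine ⟨δ, min ρ r, hδ, lt_min hρ hr, (min_le_left _ _).trans h1,
      (hu.mono (jp_sub (min_le_left ρ r))).congr hs, ?_⟩
    refine lt_of_le_of_lt (setLIntegral_mono' (pd_open _).measurableSet fun z hz => ?_) iu'
    rw [hs z hz]

end Vale.Agent.P253
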