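import Mathlib

/-!
Jet lemma: submodules of germs of holomorphic vector functions in one variable are closed.
-/

open Filter Topology

namespace P253

variable {V : Type*} [NormedAddCommGroup V] [NormedSpace ℂ V] [FiniteDimensional ℂ V]

/-- Stabilisation of the chain `{H | z ^ k H ∈ E}`. -/
theorem jet_stab (E : (ℂ → V) → Prop)
    (hzero : E 0)
    (hadd : ∀ F G, AnalyticAt ℂ F 0 → AnalyticAt ℂ G 0 → E F → E G → E (F + G))
    (hmul : ∀ (b : ℂ → ℂ) (F : ℂ → V), AnalyticAt ℂ b 0 → AnalyticAt ℂ F 0 → E F →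
      E (fun z => b z • F z))
    (hcongr : ∀ F G, AnalyticAt ℂ F 0 → E F → F =ᶠ[𝓝 0] G → E G) :
    ∃ N : ℕ, ∀ H : ℂ → V, AnalyticAt ℂ H 0 → E (fun z => z ^ (N + 1) • H z) →
      E (fun z => z ^ N • H z) := by
  classical
  have : CompleteSpace V := FiniteDimensional.complete ℂ V
  have hpow : ∀ (k : ℕ) (H : ℂ → V), AnalyticAt ℂ H 0 →
      AnalyticAt ℂ (fun z : ℂ => z ^ k • H z) 0 := fun k H hH =>
    (analyticAt_id.pow k).smul hH
  -- leading coefficient spaces
  let L : ℕ → Submodule ℂ V := fun k =>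
    { carrier := {v | ∃ H : ℂ → V, AnalyticAt ℂ H 0 ∧ E (fun z => z ^ k • H z) ∧ H 0 = v}
      zero_mem' := ⟨0, analyticAt_const, by
        have : (fun z : ℂ => z ^ k • (0 : ℂ → V) z) = 0 := by funext z; simp
        rw [this]; exact hzero, rfl⟩
      add_mem' := by
        rintro _ _ ⟨H, hH, hE, rfl⟩ ⟨H', hH', hE', rfl⟩
        refine ⟨H + H', hH.add hH', ?_, rfl⟩
        have := hadd _ _ (hpow k H hH) (hpow k H' hH') hE hE'
        convert this using 1
        funext z; simp [smul_add]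
      smul_mem' := by
        rintro c _ ⟨H, hH, hE, rfl⟩
        refine ⟨fun z => c • H z, analyticAt_const.smul hH, ?_, rfl⟩
        have := hmul (fun _ => c) _ analyticAt_const (hpow k H hH) hE
        convert this using 1
        funext z; rw [smul_comm] }
  have hup : ∀ (k m : ℕ) (H : ℂ → V), AnalyticAt ℂ H 0 → E (fun z => z ^ k • H z) →
      E (fun z => z ^ (k + m) • H z) := by
    intro k m H hH hE
    have := hmul (fun z => z ^ m) _ (analyticAt_id.pow m) (hpow k H hH) hE
    convert this using 1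
    funext z; rw [smul_smul, ← pow_add, add_comm]
  have hmono : Monotone L := by
    intro k l hkl v hv
    obtain ⟨m, rfl⟩ := Nat.exists_eq_add_of_le hkl
    obtain ⟨H, hH, hE, rfl⟩ := hv
    exact ⟨H, hH, hup k m H hH hE, rfl⟩
  obtain ⟨N, hN⟩ := monotone_stabilizes_iff_noetherian.mpr
    (inferInstance : IsNoetherian ℂ V) ⟨L, hmono⟩
  refine ⟨N, fun H hH hE => ?_⟩
  obtain ⟨W, hW⟩ := (L N).exists_isCompl
  let b := Module.finBasis ℂ (L N)
  have hb : ∀ i, ∃ H : ℂ → V, AnalyticAt ℂ H 0 ∧ E (fun z => z ^ N • H z) ∧ H 0 = (b i : V) :=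
    fun i => (b i).2
  choose Hs hHs hEs h0s using hb
  let π : V →ₗ[ℂ] L N := Submodule.projectionOnto (L N) W hW
  let co : Fin (Module.finrank ℂ (L N)) → V →L[ℂ] ℂ := fun i =>
    LinearMap.toContinuousLinearMap ((b.coord i) ∘ₗ π)
  let Q : V →L[ℂ] V := LinearMap.toContinuousLinearMap (LinearMap.id - (L N).subtype ∘ₗ π)
  have hQW : ∀ v, Q v ∈ W := by
    intro v
    have h1 : π (Q v) = 0 := by
      have h2 : Q v = v - (π v : V) := rfl
      rw [h2, map_sub, sub_eq_zero]
      exact (Submodule.projectionOnto_apply_left hW (π v)).symm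
    exact (Submodule.projectionOnto_apply_eq_zero_iff hW).mp h1
  let T : ℂ → (V →L[ℂ] V) := fun z => (∑ i, (co i).smulRight (Hs i z)) + Q
  have hT : AnalyticAt ℂ T 0 := by
    refine AnalyticAt.add (Finset.analyticAt_fun_sum _ fun i _ => ?_) analyticAt_const
    exact ((ContinuousLinearMap.smulRightL ℂ V V (co i)).analyticAt _).comp (hHs i)
  have hT0 : T 0 = 1 := by
    ext v
    have h1 : ∑ i, (co i v) • (b i : V) = (π v : V) := by
      have := congrArg (L N).subtype (b.sum_repr (π v))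
      rw [map_sum] at this
      exact this
    simp only [T, ContinuousLinearMap.add_apply, ContinuousLinearMap.sum_apply,
      ContinuousLinearMap.smulRight_apply, h0s, h1]
    simp [Q]
  have hinv : AnalyticAt ℂ (fun z => Ring.inverse (T z)) 0 := by
    have h1 : AnalyticAt ℂ (Ring.inverse : (V →L[ℂ] V) → (V →L[ℂ] V)) (T 0) := by
      rw [hT0]; exact analyticAt_inverse (1 : (V →L[ℂ] V)ˣ)
    exact h1.comp hT
  have hunit : ∀ᶠ z in 𝓝 (0 : ℂ), IsUnit (T z) := by
    have h1 : {x : V →L[ℂ] V | IsUnit x} ∈ 𝓝 (T 0) :=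
      Units.isOpen.mem_nhds (by rw [hT0]; exact isUnit_one)
    exact hT.continuousAt h1
  let B : ℂ → V := fun z => Ring.inverse (T z) (H z)
  have hB : AnalyticAt ℂ B 0 :=
    ((ContinuousLinearMap.id ℂ (V →L[ℂ] V)).analyticAt_bilinear _).comp₂ hinv hH
  have hHB : ∀ᶠ z in 𝓝 (0 : ℂ), H z = (∑ i, co i (B z) • Hs i z) + Q (B z) := by
    filter_upwards [hunit] with z hz
    have h1 : T z (B z) = H z := by
      have : T z * Ring.inverse (T z) = 1 := Ring.mul_inverse_cancel _ hz
      have h2 := congrArg (fun A : V →L[ℂ] V => A (H z)) this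
      simpa [B] using h2
    rw [← h1]
    simp [T]
  have hcoB : ∀ i, AnalyticAt ℂ (fun z => co i (B z)) 0 := fun i =>
    ((co i).analyticAt _).comp hB
  -- finite combinations of the `Hs` lie in every level
  have hsum : ∀ (k : ℕ) (c : Fin (Module.finrank ℂ (L N)) → ℂ → ℂ), (∀ i, AnalyticAt ℂ (c i) 0) →
      E (fun z => z ^ (N + k) • ∑ i, c i z • Hs i z) := by
    intro k c hc
    have key : ∀ s : Finset (Fin (Module.finrank ℂ (L N))),
        E (fun z => z ^ (N + k) • ∑ i ∈ s, c i z • Hs i z) := by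
      intro s
      induction s using Finset.induction_on with
      | empty =>
        have : (fun z : ℂ => z ^ (N + k) • ∑ i ∈ (∅ : Finset _), c i z • Hs i z) = 0 := by
          funext z; simp
        rw [this]; exact hzero
      | insert i s hi ih =>
        have h1 := hmul (c i) _ (hc i) (hpow _ _ (hHs i)) (hup N k _ (hHs i) (hEs i))
        have h2 := hadd _ _ ((hc i).smul (hpow _ _ (hHs i)))
          (hpow _ _ (Finset.analyticAt_fun_sum s fun j _ => (hc j).smul (hHs j))) h1 ih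
        convert h2 using 1
        funext z
        simp only [Finset.sum_insert hi, smul_add, Pi.add_apply]
        rw [smul_comm]
        rfl
    exact key _
  let R : ℂ → V := fun z => Q (B z)
  have hR : AnalyticAt ℂ R 0 := (Q.analyticAt _).comp hB
  have hRE : E (fun z => z ^ (N + 1) • R z) := by
    have h1 := hsum 1 (fun i z => -co i (B z)) fun i => (hcoB i).neg
    have h2 := hadd _ _ (hpow _ _ hH)
      (hpow _ _ (Finset.analyticAt_fun_sum _ fun j _ => (hcoB j).neg.smul (hHs j))) hE h1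
    refine hcongr _ _ ((hpow _ _ hH).add
      (hpow _ _ (Finset.analyticAt_fun_sum _ fun j _ => (hcoB j).neg.smul (hHs j)))) h2 ?_
    filter_upwards [hHB] with z hz
    simp only [Pi.add_apply, R]
    rw [← smul_add, hz]
    congr 1
    simp [Finset.sum_neg_distrib]
  have hR0 : ∀ᶠ z in 𝓝 (0 : ℂ), R z = 0 := by
    by_contra hne
    obtain ⟨m, g, hg, hg0, hgR⟩ := hR.exists_eventuallyEq_pow_smul_nonzero_iff.mpr hne
    have hgL : g 0 ∈ L (N + 1 + m) := by
      refine ⟨g, hg, hcongr _ _ (hpow _ _ hR) hRE ?_, rfl⟩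
      filter_upwards [hgR] with z hz
      rw [hz, sub_zero, smul_smul, ← pow_add]
    have hLN : L N = L (N + 1 + m) := hN (N + 1 + m) (by omega)
    rw [← hLN] at hgL
    have hgW : g 0 ∈ W := by
      have hcl : IsClosed (W : Set V) := W.closed_of_finiteDimensional
      have ht : Tendsto g (𝓝[≠] 0) (𝓝 (g 0)) := hg.continuousAt.mono_left nhdsWithin_le_nhds
      refine hcl.mem_of_tendsto ht ?_
      filter_upwards [nhdsWithin_le_nhds hgR, self_mem_nhdsWithin] with z hz hz0
      have hz0' : z ^ m ≠ 0 := pow_ne_zero _ hz0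
      have h1 : g z = (z ^ m)⁻¹ • R z := by
        rw [hz, sub_zero, smul_smul, inv_mul_cancel₀ hz0', one_smul]
      rw [h1]
      exact W.smul_mem _ (hQW _)
    have : g 0 ∈ L N ⊓ W := ⟨hgL, hgW⟩
    rw [hW.inf_eq_bot] at this
    exact hg0 (by simpa using this)
  have h1 := hsum 0 (fun i z => co i (B z)) hcoB
  refine hcongr _ _ (hpow _ _ (Finset.analyticAt_fun_sum _ fun j _ => (hcoB j).smul (hHs j))) h1 ?_
  filter_upwards [hHB, hR0] with z hz hz'
  simp only [R] at hz'
  rw [hz, hz', add_zero, add_zero]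
  rfl

/-- Jet lemma.  `Ep ≤ E` are spaces of germs at `0`, `E` is a module over holomorphic germs,
`z E ≤ Ep`.  Then `Ep` is closed in `E` for convergence of all derivatives at `0`. -/
theorem jet_closed (E Ep : (ℂ → V) → Prop)
    (hadd : ∀ F G, AnalyticAt ℂ F 0 → AnalyticAt ℂ G 0 → E F → E G → E (F + G))
    (hmul : ∀ (b : ℂ → ℂ) (F : ℂ → V), AnalyticAt ℂ b 0 → AnalyticAt ℂ F 0 → E F →
      E (fun z => b z • F z))
    (hcongr : ∀ F G, AnalyticAt ℂ F 0 → E F → F =ᶠ[𝓝 0] G → E G)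
    (hle : ∀ F, AnalyticAt ℂ F 0 → Ep F → E F)
    (hpadd : ∀ F G, AnalyticAt ℂ F 0 → AnalyticAt ℂ G 0 → Ep F → Ep G → Ep (F + G))
    (hpsmul : ∀ (c : ℂ) (F : ℂ → V), AnalyticAt ℂ F 0 → Ep F → Ep (c • F))
    (hpcongr : ∀ F G, AnalyticAt ℂ F 0 → Ep F → F =ᶠ[𝓝 0] G → Ep G)
    (hz : ∀ F, AnalyticAt ℂ F 0 → E F → Ep (fun z => z • F z))
    (X : ℂ → V) (hX : AnalyticAt ℂ X 0) (hXE : E X)
    (Y : ℕ → ℂ → V) (hY : ∀ k, AnalyticAt ℂ (Y k) 0) (hYE : ∀ k, Ep (Y k))
    (hlim : ∀ m : ℕ, Tendsto (fun k => iteratedDeriv m (Y k) 0) atTop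
      (𝓝 (iteratedDeriv m X 0))) :
    Ep X := by
  classical
  have : CompleteSpace V := FiniteDimensional.complete ℂ V
  have hzero : E 0 := by
    have := hmul (fun _ => 0) X analyticAt_const hX hXE
    convert this using 1
    funext z; simp
  obtain ⟨N, hN⟩ := jet_stab E hzero hadd hmul hcongr
  let J : Submodule ℂ (Fin (N + 1) → V) :=
    { carrier := {v | ∃ F : ℂ → V, AnalyticAt ℂ F 0 ∧ Ep F ∧
        ∀ i : Fin (N + 1), iteratedDeriv i F 0 = v i}
      zero_mem' := ⟨0, analyticAt_const, by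
        have := hpsmul 0 _ (hY 0) (hYE 0)
        rwa [zero_smul] at this, fun i => by simp⟩
      add_mem' := by
        rintro v w ⟨F, hF, hE, hv⟩ ⟨G, hG, hE', hw⟩
        refine ⟨F + G, hF.add hG, hpadd _ _ hF hG hE hE', fun i => ?_⟩
        rw [iteratedDeriv_add hF.contDiffAt hG.contDiffAt, hv, hw]; rfl
      smul_mem' := by
        rintro c v ⟨F, hF, hE, hv⟩
        refine ⟨c • F, hF.const_smul, hpsmul c F hF hE, fun i => ?_⟩
        rw [iteratedDeriv_const_smul hF.contDiffAt, hv]; rfl }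
  have hJ : (fun i : Fin (N + 1) => iteratedDeriv i X 0) ∈ J := by
    have hcl : IsClosed (J : Set (Fin (N + 1) → V)) := J.closed_of_finiteDimensional
    refine hcl.mem_of_tendsto (f := fun k => fun i : Fin (N + 1) => iteratedDeriv i (Y k) 0)
      (b := atTop) (tendsto_pi_nhds.mpr fun i => hlim i) (Eventually.of_forall fun k => ?_)
    exact ⟨Y k, hY k, hYE k, fun _ => rfl⟩
  obtain ⟨Z, hZ, hZE, hZX⟩ := hJ
  have hD : AnalyticAt ℂ (X - Z) 0 := hX.sub hZ
  have hord : ((N + 1 : ℕ) : ℕ∞) ≤ analyticOrderAt (X - Z) 0 := by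
    rw [natCast_le_analyticOrderAt_iff_iteratedDeriv_eq_zero hD]
    intro i hi
    rw [iteratedDeriv_sub hX.contDiffAt hZ.contDiffAt, sub_eq_zero]
    exact (hZX ⟨i, hi⟩).symm
  obtain ⟨H, hH, hHe⟩ := (natCast_le_analyticOrderAt hD).mp hord
  have hDE : E (X - Z) := by
    have h1 := hmul (fun _ => -1) Z analyticAt_const hZ (hle _ hZ hZE)
    have h2 := hadd _ _ hX (analyticAt_const.smul hZ) hXE h1
    convert h2 using 1
    funext z; simp [sub_eq_add_neg]
  have h1 : E (fun z => z ^ (N + 1) • H z) := by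
    refine hcongr _ _ hD hDE ?_
    filter_upwards [hHe] with z hz
    rw [hz, sub_zero]
  have hHN : AnalyticAt ℂ (fun z : ℂ => z ^ N • H z) 0 := (analyticAt_id.pow N).smul hH
  have h2 := hz _ hHN (hN H hH h1)
  have h3 := hpadd _ _ hZ (analyticAt_id.smul hHN) hZE h2
  refine hpcongr _ _ (hZ.add (analyticAt_id.smul hHN)) h3 ?_
  filter_upwards [hHe] with z hz
  simp only [Pi.sub_apply, sub_zero] at hz
  change Z z + z • z ^ N • H z = X z
  rw [smul_smul, ← pow_succ', ← hz]
  abel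

end P253
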