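import Vale.Agent.P253.Calc

/-!
The maximum principle for smooth subharmonic functions. For `ε > 0` the function
`q z + ε * ‖z‖ ^ 2` attains its maximum on the closed ball; at an interior maximum `z` the second
derivatives of `s ↦ q (z + s) + ..` and `s ↦ q (z + s * I) + ..` at `0` are `≤ 0` (one variable second
derivative test, e.g. `isLocalMin_of_deriv_deriv_pos` / `IsLocalMax` and strictness, or Taylor), but
their sum is `4 * re (d1 (d2 q) z) + 4 ε > 0` by `d12_lap`. Let `ε → 0`.
-/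

namespace Vale.Agent.P253

open Complex Matrix Metric Set Filter Topology MeasureTheory
open scoped ContDiff ComplexConjugate ComplexOrder ENNReal

variable {n : ℕ}

lemma max_line {F : ℂ → ℂ} {U : Set ℂ} (hU : IsOpen U) (hF : ContDiffOn ℝ ∞ F U) {z : ℂ}
    (hz : z ∈ U) {ε : ℝ} (hm : IsLocalMax (fun w => (F w).re + ε * normSq w) z) (v : ℂ) :
    (fderiv ℝ (fun w => fderiv ℝ F w v) z v).re + ε * (2 * normSq v) ≤ 0 := by
  have hl : ∀ s : ℝ, HasDerivAt (fun s : ℝ => z + s • v) v s := fun s => by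
    simpa using ((hasDerivAt_id s).smul_const v).const_add z
  have h0 : Tendsto (fun s : ℝ => z + s • v) (𝓝 0) (𝓝 z) := by
    simpa using (hl 0).continuousAt.tendsto
  have hd : ∀ {G : ℂ → ℂ}, ContDiffOn ℝ ∞ G U → ∀ s : ℝ, z + s • v ∈ U →
      HasDerivAt (fun s : ℝ => (G (z + s • v)).re) (fderiv ℝ G (z + s • v) v).re s :=
    fun hG s hs => reCLM.hasFDerivAt.comp_hasDerivAt s
      ((diffAt hU hG hs).hasFDerivAt.comp_hasDerivAt s (hl s))
  obtain ⟨φ, hφ⟩ : ∃ φ : ℝ → ℝ, φ = fun s : ℝ => (F (z + s • v)).re +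
      ε * (normSq z + 2 * (z * conj v).re * s + normSq v * s ^ 2) := ⟨_, rfl⟩
  have h1 : ∀ᶠ s : ℝ in 𝓝 0, HasDerivAt φ ((fderiv ℝ F (z + s • v) v).re +
      ε * (2 * (z * conj v).re + normSq v * (2 * s))) s := by
    filter_upwards [h0.eventually (hU.mem_nhds hz)] with s hs
    rw [hφ]
    refine (hd hF s hs).add (HasDerivAt.const_mul _ ?_)
    simpa using (((hasDerivAt_id s).const_mul (2 * (z * conj v).re)).const_add (normSq z)).fun_add
      ((hasDerivAt_pow 2 s).const_mul (normSq v))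
  have h2 : deriv (deriv φ) 0 =
      (fderiv ℝ (fun w => fderiv ℝ F w v) z v).re + ε * (2 * normSq v) := by
    rw [EventuallyEq.deriv_eq (f₁ := deriv φ) (h1.mono fun s hs => hs.deriv)]
    have h3 := (hd (fd_smooth hU hF v) 0 (by simpa using hz)).fun_add
      (((((hasDerivAt_id (0 : ℝ)).const_mul 2).const_mul (normSq v)).const_add
        (2 * (z * conj v).re)).const_mul ε)
    rw [zero_smul, add_zero, mul_one, mul_comm (normSq v)] at h3
    exact h3.deriv
  have h4 : IsLocalMax φ 0 := by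
    have e : φ = (fun w => (F w).re + ε * normSq w) ∘ fun s : ℝ => z + s • v := by
      rw [hφ]
      funext s
      simp only [Function.comp, normSq_apply, add_re, add_im, smul_re, smul_im, mul_re, conj_re,
        conj_im, smul_eq_mul]
      ring
    rw [e]
    exact IsLocalMax.comp_continuous (by simpa using hm) (hl 0).continuousAt
  rw [← h2]
  by_contra h5
  have h6 := isLocalMin_of_deriv_deriv_pos (not_le.1 h5) h4.deriv_eq_zero
    h1.self_of_nhds.continuousAt
  rw [(eventuallyEq_of_isMinFilter_of_isMaxFilter h6 h4).deriv.deriv_eq] at h5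
  simp at h5

theorem maxp {q : ℂ → ℝ} {U : Set ℂ} (hU : IsOpen U) (hs : closedBall 0 1 ⊆ U)
    (hq : ContDiffOn ℝ ∞ q U) (h : ∀ z ∈ U, 0 ≤ (d1 (d2 fun w => (q w : ℂ)) z).re) {C : ℝ}
    (hb : ∀ z : ℂ, ‖z‖ = 1 → q z ≤ C) : ∀ z : ℂ, ‖z‖ ≤ 1 → q z ≤ C := by
  intro z hz
  refine le_of_forall_pos_le_add fun ε hε => ?_
  obtain ⟨w, hw, hm⟩ := (isCompact_closedBall (0 : ℂ) 1).exists_isMaxOn ⟨0, by simp⟩
    (f := fun w => q w + ε * normSq w)
    ((hq.continuousOn.mono hs).add (continuous_normSq.const_mul ε).continuousOn)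
  have h1 : q z + ε * normSq z ≤ q w + ε * normSq w := hm (mem_closedBall_zero_iff.2 hz)
  rcases (mem_closedBall_zero_iff.1 hw).eq_or_lt with e | e
  · rw [normSq_eq_norm_sq w, e] at h1
    nlinarith [hb w e, normSq_nonneg z]
  · have hF : ContDiffOn ℝ ∞ (fun w => (q w : ℂ)) U := ofRealCLM.contDiff.comp_contDiffOn hq
    have h2 : IsLocalMax (fun w => ((q w : ℂ)).re + ε * normSq w) w :=
      hm.isLocalMax (mem_of_superset (isOpen_ball.mem_nhds (mem_ball_zero_iff.2 e))
        ball_subset_closedBall)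
    have h3 := max_line hU hF (hs hw) h2 1
    have h4 := max_line hU hF (hs hw) h2 I
    have h5 := h w (hs hw)
    rw [d12_lap hU hF (hs hw), div_ofNat_re, add_re] at h5
    rw [normSq_one] at h3
    rw [normSq_I] at h4
    linarith

end Vale.Agent.P253
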