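import Vale.Agent.P253.Calc

/-!
A continuous square root on positive definite matrices: `CFC.sqrt` with
`open scoped Matrix.Norms.L2Operator MatrixOrder`, `CFC.continuousOn_sqrt`, `CFC.sqrt_mul_sqrt_self`,
`Matrix.nonneg_iff_posSemidef`. The topology of the operator norm is the product topology (the
instances are built with `replaceTopology`; otherwise use finite dimension). Second part: the
Cauchy-Schwarz inequality between `K` and `K⁻¹` (write `K = Aᴴ * A`, `v ⬝ᵥ t = star x ⬝ᵥ (A *ᵥ t)` with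
`x = (Aᴴ)⁻¹ *ᵥ star v`, `nsq_eq`).
-/

namespace Vale.Agent.P253

open Complex Matrix Metric Set Filter Topology MeasureTheory
open scoped ContDiff ComplexConjugate ComplexOrder ENNReal

variable {n : ℕ}

theorem exists_sqrt (n : ℕ) : ∃ A : M n → M n, ContinuousOn A {K | K.PosDef} ∧
    ∀ K : M n, K.PosDef → (A K)ᴴ * A K = K := by
  open scoped Matrix.Norms.L2Operator MatrixOrder in
  refine ⟨fun K => CFC.sqrt K, (CFC.continuousOn_sqrt (A := M n)).mono
    fun K hK => (PosDef.posSemidef hK).nonneg, fun K hK => ?_⟩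
  open scoped Matrix.Norms.L2Operator MatrixOrder in
  rw [(CFC.sqrt_nonneg K).posSemidef.1.eq, CFC.sqrt_mul_sqrt_self K hK.posSemidef.nonneg]

theorem sq_cs (x y : Fin n → ℂ) :
    ‖star x ⬝ᵥ y‖ ^ 2 ≤ (star x ⬝ᵥ x).re * (star y ⬝ᵥ y).re := by
  have e : ∀ a b : Fin n → ℂ, star a ⬝ᵥ b =
      inner ℂ (WithLp.toLp 2 a : E n) (WithLp.toLp 2 b) := fun a b => by
    rw [EuclideanSpace.inner_toLp_toLp, dotProduct_comm]
  rw [e, e, e, ← RCLike.re_to_complex, ← RCLike.re_to_complex, inner_self_eq_norm_sq,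
    inner_self_eq_norm_sq, ← mul_pow]
  exact pow_le_pow_left₀ (norm_nonneg _) (norm_inner_le_norm _ _) 2

theorem dual_cs {K : M n} (hK : K.PosDef) (v t : Fin n → ℂ) :
    ‖v ⬝ᵥ t‖ ^ 2 ≤ nsq K⁻¹ v * (hf K t t).re := by
  obtain ⟨A, -, hA⟩ := exists_sqrt n
  have e : ∀ a b, hf K a b = star (A K *ᵥ a) ⬝ᵥ (A K *ᵥ b) := fun a b => by
    rw [star_mulVec, ← dotProduct_mulVec, mulVec_mulVec, hA K hK, hf]
  have h1 : ∀ b, hf K (K⁻¹ *ᵥ star v) b = v ⬝ᵥ b := fun b => by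
    rw [hf, star_mulVec, ← dotProduct_mulVec, mulVec_mulVec, hK.1.inv.eq,
      nonsing_inv_mul _ (isUnit_iff_ne_zero.2 hK.det_pos.ne'), one_mulVec, star_star]
  have h2 := sq_cs (A K *ᵥ (K⁻¹ *ᵥ star v)) (A K *ᵥ t)
  rw [← e, ← e, ← e, h1, h1] at h2
  rwa [nsq_eq, hf, star_star]

end Vale.Agent.P253
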