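import Vale.Agent.P253.Pull
import Vale.Agent.P253.Inv
import Vale.Agent.P253.Max
import Vale.Agent.P253.Sq

/-!
A lower bound of the metric on the limit disc. For `τ ∈ [0, 1)` let `K w = (g (f w + τ • b w))⁻¹` on
`U = ball 0 2` (`pull`, `inv_neg`). For a constant vector `t`, `q w = re (hf (K w) t t)` is smooth,
`(q w : ℂ) = hf (K w) t t` on `U` and `d1 (d2 q) z = hf (m1 (m2 K) z) t t`, whose real part is
`blk K z t 0 ≥ 0`. The set of `f ζ + τ • b ζ`, `‖ζ‖ = 1`, `τ ∈ [0, 1]` is compact in `Ω`, where `g⁻¹`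
is continuous, so `q ≤ C ‖t‖ ^ 2` on the circle, by `maxp` on the disc, and in the limit `τ → 1` for
`z ∈ pd 1`. Finally `dual_cs` with `t = Pi.single i 1` and `Matrix.nonsing_inv_nonsing_inv` gives
`‖v i‖ ^ 2 ≤ nsq G v * C` (it is enough to treat the vectors `t = Pi.single i 1`).
-/

namespace Vale.Agent.P253

open Complex Matrix Metric Set Filter Topology MeasureTheory
open scoped ContDiff ComplexConjugate ComplexOrder ENNReal

variable {n : ℕ}

lemma low_hf (K : M n) (i : Fin n) : hf K (Pi.single i 1) (Pi.single i 1) = K i i := by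
  simp [hf]

lemma low_cont {Ω : Set (E n)} (hΩ : IsOpen Ω) {g : E n → M n} (hg : IsKaehler Ω g) {x : E n}
    (hx : x ∈ Ω) : ContinuousAt (fun y => (g y)⁻¹) x := by
  have h1 : ContinuousAt g x := continuousAt_pi.2 fun i => continuousAt_pi.2 fun j =>
    (hg.smooth i j).continuousOn.continuousAt (hΩ.mem_nhds hx)
  refine ContinuousAt.comp (g := Inv.inv) (continuousAt_matrix_inv _ ?_) h1
  rw [Ring.inverse_eq_inv']
  exact continuousAt_inv₀ (hg.pos x hx).det_pos.ne'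

lemma low_max {K : ℂ → M n} (h : Sm (ball 0 2) K) (hn : Neg (ball 0 2) K fun _ => 0) (i : Fin n)
    {C : ℝ} (hb : ∀ z : ℂ, ‖z‖ = 1 → (K z i i).re ≤ C) :
    ∀ z : ℂ, ‖z‖ ≤ 1 → (K z i i).re ≤ C := by
  refine maxp (q := fun z => (K z i i).re) (isOpen_ball (x := (0 : ℂ)) (ε := 2))
    (closedBall_subset_ball one_lt_two) (reCLM.contDiff.comp_contDiffOn (h.smooth i i))
    (fun z hz => ?_) hb
  have h1 : ∀ w ∈ ball (0 : ℂ) 2, (fun w => (((K w i i).re : ℝ) : ℂ)) =ᶠ[𝓝 w]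
      fun w => K w i i := fun w hw => by
    filter_upwards [isOpen_ball.mem_nhds hw] with y hy
    exact conj_eq_iff_re.1 ((h.pos y hy).isHermitian.apply i i)
  have h2 : d2 (fun w => (((K w i i).re : ℝ) : ℂ)) =ᶠ[𝓝 z] d2 fun w => K w i i := by
    filter_upwards [isOpen_ball.mem_nhds hz] with y hy
    exact d2_congr (h1 y hy)
  rw [d1_congr h2]
  have h3 := hn z hz (Pi.single i 1) 0
  rw [zero_mul, blk, low_hf] at h3
  have h4 : 0 ≤ (m1 (m2 K) z i i).re := by simpa [hf] using h3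
  exact h4

theorem low {Ω : Set (E n)} (hΩ : IsOpen Ω) {g : E n → M n} (hg : IsKaehler Ω g)
    (hb : NonnegBisec Ω g) {f b : ℂ → E n} (hT : Touch Ω f b) :
    ∃ C : ℝ, 0 ≤ C ∧ ∀ z ∈ pd 1, ∀ (v : Fin n → ℂ) i, ‖v i‖ ^ 2 ≤ C * nsq (g (f z + b z)) v := by
  have hc : Continuous fun p : ℂ × ℝ => f p.1 + (p.2 : ℂ) • b p.1 :=
    (hT.df.continuous.comp continuous_fst).add
      ((continuous_ofReal.comp continuous_snd).smul (hT.db.continuous.comp continuous_fst))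
  have hK : IsCompact (sphere (0 : ℂ) 1 ×ˢ Icc (0 : ℝ) 1) := (isCompact_sphere _ _).prod isCompact_Icc
  have hd : ∀ x ∈ Ω, ContinuousAt (fun y => fun i => (g y)⁻¹ i i) x := fun x hx =>
    continuousAt_pi.2 fun i =>
      continuousAt_pi.1 (continuousAt_pi.1 (low_cont hΩ hg hx) i) i
  obtain ⟨C, hC⟩ := hK.exists_bound_of_continuousOn
    (f := fun p : ℂ × ℝ => fun i => (g (f p.1 + (p.2 : ℂ) • b p.1))⁻¹ i i) fun p hp => by
      have h1 : ‖p.1‖ = 1 := mem_sphere_zero_iff_norm.1 hp.1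
      refine (ContinuousAt.comp (g := fun y => fun i => (g y)⁻¹ i i) (hd _ ?_)
        hc.continuousAt).continuousWithinAt
      exact hT.ins _ hp.2 _ (h1.le.trans one_le_two) (Or.inr fun e => by simp [e] at h1)
  have h1 : ∀ τ ∈ Ico (0 : ℝ) 1, ∀ z : ℂ, ‖z‖ ≤ 1 → ∀ i,
      ((g (f z + (τ : ℂ) • b z))⁻¹ i i).re ≤ C := fun τ hτ z hz i => by
    obtain ⟨a1, a2⟩ := pull hΩ hg hb (F := fun w => f w + (τ : ℂ) • b w)
      (hT.df.add (hT.db.const_smul (τ : ℂ))) (isOpen_ball (x := (0 : ℂ)) (ε := 2)) fun w hw =>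
        hT.ins τ ⟨hτ.1, hτ.2.le⟩ w (mem_ball_zero_iff.1 hw).le (Or.inl hτ.2)
    obtain ⟨a3, a4⟩ := inv_neg isOpen_ball a1 a2
    refine low_max a3 a4 i (fun w hw => ?_) z hz
    exact (re_le_norm _).trans ((norm_le_pi_norm
      (fun i => (g (f w + (τ : ℂ) • b w))⁻¹ i i) i).trans
        (hC (w, τ) ⟨mem_sphere_zero_iff_norm.2 hw, hτ.1, hτ.2.le⟩))
  refine ⟨max C 0, le_max_right _ _, fun z hz v i => ?_⟩
  obtain ⟨hz1, hz0⟩ := mem_pd.1 hz
  have h2 : f z + ((1 : ℝ) : ℂ) • b z ∈ Ω :=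
    hT.ins 1 ⟨zero_le_one, le_rfl⟩ z (hz1.le.trans one_le_two) (Or.inr hz0)
  have h3 : ContinuousAt (fun τ : ℝ => ((g (f z + (τ : ℂ) • b z))⁻¹ i i).re) 1 :=
    continuous_re.continuousAt.comp (ContinuousAt.comp (g := fun y => (g y)⁻¹ i i)
      (f := fun τ : ℝ => f z + (τ : ℂ) • b z) (continuousAt_pi.1 (hd _ h2) i)
      (hc.comp (continuous_const.prodMk continuous_id)).continuousAt)
  have h4 : ((g (f z + ((1 : ℝ) : ℂ) • b z))⁻¹ i i).re ≤ C := by
    refine le_of_tendsto (h3.tendsto.mono_left (nhdsWithin_le_nhds (s := Iio 1))) ?_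
    filter_upwards [Ico_mem_nhdsLT (zero_lt_one' ℝ)] with τ hτ
    exact h1 τ hτ z hz1.le i
  rw [ofReal_one, one_smul] at h2 h4
  have hp := hg.pos _ h2
  have h5 := dual_cs hp.inv v (Pi.single i 1)
  rw [low_hf, Matrix.nonsing_inv_nonsing_inv _ (isUnit_iff_ne_zero.2 hp.det_pos.ne'),
    dotProduct_single, mul_one, mul_comm] at h5
  exact h5.trans (mul_le_mul_of_nonneg_right (h4.trans (le_max_left _ _)) (nsq_nonneg hp v))

end Vale.Agent.P253
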