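import Vale.Agent.P253.Calc

/-!
Submodules of germs are closed. Prove by induction on a finset `s` (all `V`, `ρ`): the claim when in
addition `V z i = 0` and `W z i = 0` near `0` for `i ∉ s`. Empty `s`: `V =ᶠ 0`. Step `insert i s`:
consider the analytic `u` with `J u` whose coordinates outside `insert i s` vanish near `0`. If all
have `u · i =ᶠ 0`, then `V_i = W_i` near `0`, so all Taylor coefficients of `V_i` vanish (Cauchy
estimate, `ε` arbitrary), `V_i =ᶠ 0`, `W_i =ᶠ 0`. Otherwise take `j` with minimal order `m` of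
`j · i` and normalise `j z i = z ^ m` near `0` (`AnalyticAt.analyticOrderAt_eq_natCast`). Then
`V_i - W_i` has order `≥ m`, so `V_i = z ^ m a`, `W_i = z ^ m b` with `b` holomorphic on the ball
(iterate `dslope`) and `‖b‖ ≤ ε / r ^ m` on `ball 0 r` (maximum principle). Apply the induction
hypothesis to `V - a • j` and `W - b • j` on a smaller ball where `j` is holomorphic and bounded.
-/

namespace Vale.Agent.P253

open Complex Matrix Metric Set Filter Topology MeasureTheory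
open scoped ContDiff ComplexConjugate ComplexOrder ENNReal

variable {n : ℕ}

/-- Divisibility by a power of the coordinate. -/
def mod_Dv (m : ℕ) (f : ℂ → ℂ) : Prop :=
  ∃ g, AnalyticAt ℂ g 0 ∧ ∀ᶠ z in 𝓝 (0 : ℂ), f z = z ^ m * g z

lemma mod_cancel {m : ℕ} {f g : ℂ → ℂ} (hf : ContinuousAt f 0) (hg : ContinuousAt g 0)
    (h : ∀ᶠ z in 𝓝 (0 : ℂ), z ^ m * f z = z ^ m * g z) : f 0 = g 0 := by
  refine tendsto_nhds_unique_of_eventuallyEq (l := 𝓝[≠] (0 : ℂ))
    (hf.tendsto.mono_left nhdsWithin_le_nhds) (hg.tendsto.mono_left nhdsWithin_le_nhds) ?_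
  filter_upwards [self_mem_nhdsWithin, nhdsWithin_le_nhds h] with z hz hz'
  exact mul_left_cancel₀ (pow_ne_zero m hz) hz'

lemma mod_succ {m : ℕ} {f : ℂ → ℂ} (h : mod_Dv (m + 1) f) : mod_Dv m f := by
  obtain ⟨g, hg, e⟩ := h
  refine ⟨fun z => z * g z, analyticAt_id.mul hg, ?_⟩
  filter_upwards [e] with z hz
  rw [hz]
  ring

lemma mod_le {m k : ℕ} {f : ℂ → ℂ} (hk : m ≤ k) (h : mod_Dv k f) : mod_Dv m f := by
  induction hk with
  | refl => exact h
  | step _ ih => exact ih (mod_succ h)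

lemma mod_zero (m : ℕ) {f : ℂ → ℂ} (h : ∀ᶠ z in 𝓝 (0 : ℂ), f z = 0) : mod_Dv m f :=
  ⟨0, analyticAt_const, h.mono fun z hz => by simp [hz]⟩

lemma mod_top {f : ℂ → ℂ} (hf : AnalyticAt ℂ f 0) (h : ∀ m, mod_Dv m f) :
    ∀ᶠ z in 𝓝 (0 : ℂ), f z = 0 := by
  rw [← analyticOrderAt_eq_top, ENat.eq_top_iff_forall_ge]
  intro m
  rw [natCast_le_analyticOrderAt hf]
  simpa [mod_Dv] using h m

lemma mod_div {ρ ε : ℝ} (hρ : 0 < ρ) {w : ℂ → ℂ} (hw : DifferentiableOn ℂ w (ball 0 ρ))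
    (hb : ∀ z ∈ ball (0 : ℂ) ρ, ‖w z‖ ≤ ε) : ∀ m, mod_Dv m w →
    ∃ b, DifferentiableOn ℂ b (ball 0 ρ) ∧ (∀ z ∈ ball (0 : ℂ) ρ, ‖b z‖ ≤ ε / ρ ^ m) ∧
      ∀ z ∈ ball (0 : ℂ) ρ, w z = z ^ m * b z
  | 0, _ => ⟨w, hw, by simpa using hb, by simp⟩
  | m + 1, h => by
    obtain ⟨b, h1, h2, h3⟩ := mod_div hρ hw hb m (mod_succ h)
    obtain ⟨g, hg, e⟩ := h
    have hn := ball_mem_nhds (0 : ℂ) hρ
    have h0 : b 0 = 0 := by
      have := mod_cancel (m := m) (f := b) (g := fun z => z * g z) (h1.continuousOn.continuousAt hn)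
        (analyticAt_id.mul hg).continuousAt (by
          filter_upwards [e, hn] with z hz hz'
          rw [← h3 z hz', hz]
          ring)
      simpa using this
    refine ⟨dslope b 0, (differentiableOn_dslope hn).2 h1, fun z hz => ?_, fun z hz => ?_⟩
    · rw [pow_succ, ← div_div]
      refine norm_dslope_le_div_of_mapsTo_ball h1 (fun y hy => ?_) hz
      rw [h0, mem_closedBall_zero_iff]
      exact h2 y hy
    · have := sub_smul_dslope b 0 z
      rw [h0, sub_zero, sub_zero, smul_eq_mul] at this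
      rw [h3 z hz, pow_succ, mul_assoc, this]

lemma mod_ord {ρ : ℝ} (hρ : 0 < ρ) {f : ℂ → ℂ} (hf : AnalyticAt ℂ f 0) : ∀ m,
    (∀ ε > (0 : ℝ), ∃ w, DifferentiableOn ℂ w (ball 0 ρ) ∧ (∀ z ∈ ball (0 : ℂ) ρ, ‖w z‖ ≤ ε) ∧
      mod_Dv m (fun z => f z - w z)) → mod_Dv m f
  | 0, _ => ⟨f, hf, by simp⟩
  | m + 1, h => by
    obtain ⟨a, ha, ea⟩ := mod_ord hρ hf m fun ε hε => by
      obtain ⟨w, h1, h2, h3⟩ := h ε hε
      exact ⟨w, h1, h2, mod_succ h3⟩
    have hn := ball_mem_nhds (0 : ℂ) hρ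
    have h0 : a 0 = 0 := by
      refine norm_le_zero_iff.1 (le_of_forall_pos_le_add fun ε hε => ?_)
      obtain ⟨w, h1, h2, g, hg, e⟩ := h (ε * ρ ^ m) (by positivity)
      have e' : ∀ᶠ z in 𝓝 (0 : ℂ), w z = z ^ m * (a z - z * g z) := by
        filter_upwards [e, ea] with z hz hz'
        rw [hz'] at hz
        linear_combination -hz
      have hc : AnalyticAt ℂ (fun z => a z - z * g z) 0 := ha.sub (analyticAt_id.mul hg)
      obtain ⟨b, k1, k2, k3⟩ := mod_div hρ h1 h2 m ⟨_, hc, e'⟩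
      have := mod_cancel (m := m) (k1.continuousOn.continuousAt hn) hc.continuousAt (by
        filter_upwards [e', hn] with z hz hz'
        rw [← k3 z hz', hz])
      have k4 := k2 0 (mem_ball_self hρ)
      rw [this, mul_div_cancel_right₀ _ (by positivity)] at k4
      simpa using k4
    have h1 : ((1 : ℕ) : ℕ∞) ≤ analyticOrderAt a 0 :=
      ENat.one_le_iff_ne_zero.2 (ha.analyticOrderAt_ne_zero.2 h0)
    obtain ⟨g, hg, e⟩ := (natCast_le_analyticOrderAt ha).1 h1
    refine ⟨g, hg, ?_⟩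
    filter_upwards [e, ea] with z hz hz'
    rw [hz', hz]
    simp only [sub_zero, pow_one, smul_eq_mul]
    ring

lemma mod_aux {J : (ℂ → Fin n → ℂ) → Prop} (h0 : J 0) (ha : ∀ u v, J u → J v → J (u + v))
    (hs : ∀ (a : ℂ → ℂ) u, AnalyticAt ℂ a 0 → J u → J fun z => a z • u z)
    (hc : ∀ u v, u =ᶠ[𝓝 0] v → J u → J v) (s : Finset (Fin n)) :
    ∀ (V : ℂ → Fin n → ℂ) (ρ : ℝ), AnalyticAt ℂ V 0 → 0 < ρ →
      (∀ k ∉ s, ∀ᶠ z in 𝓝 (0 : ℂ), V z k = 0) →
      (∀ ε > (0 : ℝ), ∃ W : ℂ → Fin n → ℂ, DifferentiableOn ℂ W (ball 0 ρ) ∧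
        (∀ z ∈ ball (0 : ℂ) ρ, ‖W z‖ ≤ ε) ∧ J (V - W) ∧
          ∀ k ∉ s, ∀ᶠ z in 𝓝 (0 : ℂ), W z k = 0) → J V := by
  induction s using Finset.induction_on with
  | empty =>
    intro V ρ _ _ h1 _
    refine hc 0 V ?_ h0
    filter_upwards [eventually_all.2 fun k => h1 k (Finset.notMem_empty k)] with z hz
    exact (funext hz).symm
  | insert i s hi ih =>
    intro V ρ hV hρ h1 h2
    have hn := ball_mem_nhds (0 : ℂ) hρ
    have co : ∀ {u : ℂ → Fin n → ℂ}, AnalyticAt ℂ u 0 → AnalyticAt ℂ (fun z => u z i) 0 :=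
      fun hu => analyticAt_pi_iff.1 hu i
    let S : Set ℕ := {m | ∃ u, AnalyticAt ℂ u 0 ∧ J u ∧
      (∀ k ∉ insert i s, ∀ᶠ z in 𝓝 (0 : ℂ), u z k = 0) ∧ ∀ᶠ z in 𝓝 (0 : ℂ), u z i = z ^ m}
    have key : ∀ m, (∀ k ∈ S, m ≤ k) → ∀ W : ℂ → Fin n → ℂ, DifferentiableOn ℂ W (ball 0 ρ) →
        J (V - W) → (∀ k ∉ insert i s, ∀ᶠ z in 𝓝 (0 : ℂ), W z k = 0) →
        mod_Dv m fun z => V z i - W z i := by
      intro m hm W w1 w2 w3
      have hu : AnalyticAt ℂ (V - W) 0 := hV.sub (w1.analyticAt hn)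
      by_cases k0 : ∀ᶠ z in 𝓝 (0 : ℂ), (V - W) z i = 0
      · exact mod_zero m k0
      obtain ⟨k, g, g1, g2, g3⟩ := (co hu).exists_eventuallyEq_pow_smul_nonzero_iff.2 k0
      simp only [sub_zero, smul_eq_mul] at g3
      refine mod_le (hm k ⟨fun z => (g z)⁻¹ • (V - W) z, (g1.inv g2).smul hu,
        hs _ _ (g1.inv g2) w2, fun l hl => ?_, ?_⟩) ⟨g, g1, g3⟩
      · filter_upwards [h1 l hl, w3 l hl] with z z1 z2
        simp [z1, z2]
      · filter_upwards [g3, g1.continuousAt.eventually_ne g2] with z z1 z2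
        rw [Pi.smul_apply, z1, smul_eq_mul]
        field_simp
    have key2 : ∀ m, (∀ k ∈ S, m ≤ k) → mod_Dv m fun z => V z i := fun m hm =>
      mod_ord hρ (co hV) m fun ε hε => by
        obtain ⟨W, w1, w2, w3, w4⟩ := h2 ε hε
        exact ⟨fun z => W z i, differentiableOn_pi.1 w1 i,
          fun z hz => (norm_le_pi_norm _ i).trans (w2 z hz), key m hm W w1 w3 w4⟩
    have mem : ∀ k ∉ s, k ≠ i → k ∉ insert i s := fun k hk hki => by simp [hk, hki]
    rcases S.eq_empty_or_nonempty with hS | hS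
    · have hm : ∀ m, ∀ k ∈ S, m ≤ k := fun m k hk => by simp [hS] at hk
      have v0 := mod_top (co hV) fun m => key2 m (hm m)
      refine ih V ρ hV hρ (fun k hk => ?_) fun ε hε => ?_
      · by_cases hki : k = i
        · exact hki ▸ v0
        · exact h1 k (mem k hk hki)
      · obtain ⟨W, w1, w2, w3, w4⟩ := h2 ε hε
        refine ⟨W, w1, w2, w3, fun k hk => ?_⟩
        by_cases hki : k = i
        · have v1 := mod_top ((co hV).sub (co (w1.analyticAt hn))) fun m => key m (hm m) W w1 w3 w4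
          filter_upwards [v0, v1] with z z1 z2
          simpa [z1, hki] using z2
        · exact w4 k (mem k hk hki)
    · obtain ⟨j, j1, j2, j3, j4⟩ := Nat.sInf_mem hS
      set m := sInf S
      have hm : ∀ k ∈ S, m ≤ k := fun k hk => Nat.sInf_le hk
      obtain ⟨a, a1, a2⟩ := key2 m hm
      obtain ⟨r, hr, hj⟩ := Metric.eventually_nhds_iff_ball.1 (j1.eventually_analyticAt.and
        ((j1.continuousAt.norm.eventually_lt_const (lt_add_one _)).and hn))
      have hB : 0 < ‖j 0‖ + 1 := by positivity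
      have hJ := ih (fun z => V z - a z • j z) r (hV.sub (a1.smul j1)) hr (fun k hk => ?_)
        fun ε hε => ?_
      · refine hc _ _ (Eventually.of_forall fun z => ?_) (ha _ _ hJ (hs a j a1 j2))
        simp
      · by_cases hki : k = i
        · filter_upwards [a2, j4] with z z1 z2
          simp [hki, z1, z2, mul_comm]
        · filter_upwards [h1 k (mem k hk hki), j3 k (mem k hk hki)] with z z1 z2
          simp [z1, z2]
      · obtain ⟨W, w1, w2, w3, w4⟩ := h2 (ε / (1 + (‖j 0‖ + 1) / ρ ^ m)) (by positivity)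
        obtain ⟨g, g1, g2⟩ := key m hm W w1 w3 w4
        obtain ⟨b, b1, b2, b3⟩ := mod_div hρ (differentiableOn_pi.1 w1 i)
          (fun z hz => (norm_le_pi_norm _ i).trans (w2 z hz)) m ⟨fun z => a z - g z, a1.sub g1, by
            filter_upwards [a2, g2] with z z1 z2
            linear_combination z1 - z2⟩
        have sub : ball (0 : ℂ) r ⊆ ball 0 ρ := fun z hz => (hj z hz).2.2
        refine ⟨fun z => W z - b z • j z, (w1.mono sub).sub ((b1.mono sub).smul fun z hz =>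
          (hj z hz).1.differentiableAt.differentiableWithinAt), fun z hz => ?_, ?_, fun k hk => ?_⟩
        · refine (norm_sub_le _ _).trans ?_
          rw [norm_smul]
          have q1 := mul_le_mul (b2 z (sub hz)) (hj z hz).2.1.le (norm_nonneg _) (by positivity)
          refine (add_le_add (w2 z (sub hz)) q1).trans (le_of_eq ?_)
          field_simp
        · refine hc _ _ (Eventually.of_forall fun z => ?_)
            (ha _ _ w3 (hs (fun z => b z - a z) j ((b1.analyticAt hn).sub a1) j2))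
          simp only [Pi.add_apply, Pi.sub_apply, sub_smul]
          abel
        · by_cases hki : k = i
          · filter_upwards [hn, j4] with z z1 z2
            simp [hki, b3 z z1, z2, mul_comm]
          · filter_upwards [w4 k (mem k hk hki), j3 k (mem k hk hki)] with z z1 z2
            simp [z1, z2]

theorem mod_closed {J : (ℂ → Fin n → ℂ) → Prop} (h0 : J 0) (ha : ∀ u v, J u → J v → J (u + v))
    (hs : ∀ (a : ℂ → ℂ) u, AnalyticAt ℂ a 0 → J u → J fun z => a z • u z)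
    (hc : ∀ u v, u =ᶠ[𝓝 0] v → J u → J v) {V : ℂ → Fin n → ℂ} (hV : AnalyticAt ℂ V 0) {ρ : ℝ}
    (hρ : 0 < ρ) (h : ∀ ε > (0 : ℝ), ∃ W : ℂ → Fin n → ℂ, DifferentiableOn ℂ W (ball 0 ρ) ∧
      (∀ z ∈ ball (0 : ℂ) ρ, ‖W z‖ ≤ ε) ∧ J (V - W)) : J V := by
  refine mod_aux h0 ha hs hc Finset.univ V ρ hV hρ (fun k hk => (hk (Finset.mem_univ k)).elim)
    fun ε hε => ?_
  obtain ⟨W, w1, w2, w3⟩ := h ε hε
  exact ⟨W, w1, w2, w3, fun k hk => (hk (Finset.mem_univ k)).elim⟩

end Vale.Agent.P253
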