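import Vale.Agent.P253.Calc

/-!
Pull back of the metric along a holomorphic curve. With `G = g ∘ F`: `chain` gives
`d2 (G i j) w = ∑ l, dzb (g i j) l (F w) * conj (F' w l)` on the open set `U` (use `d1_congr`), then
`d1_sum`, `d1_mul`, `chain` for `dzb (g i j) l` (`dzb_smooth`, `diffAt`) and
`d1 (conj (F' l)) = conj (d2 (F' l)) = 0` (`d1_conj`, `d2_holo`; `deriv F` is entire, coordinates via
`EuclideanSpace.proj`). So the matrix `-m1 (m2 G) + m1 G * G⁻¹ * m2 G` has entries
`∑ k l, curv g x i j k l * F' k * conj (F' l)`; apply `NonnegBisec` with `X = star y`, `Y = F'`.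
-/

namespace Vale.Agent.P253

open Complex Matrix Metric Set Filter Topology MeasureTheory
open scoped ContDiff ComplexConjugate ComplexOrder ENNReal

variable {n : ℕ}

lemma pull_coord {F : ℂ → E n} (hF : Differentiable ℂ F) (l : Fin n) :
    Differentiable ℂ fun w => deriv F w l :=
  (EuclideanSpace.proj (𝕜 := ℂ) l).differentiable.comp hF.deriv

lemma pull_d12 {Ω : Set (E n)} (hΩ : IsOpen Ω) {φ : E n → ℂ} (hφ : ContDiffOn ℝ ∞ φ Ω)
    {F : ℂ → E n} (hF : Differentiable ℂ F) {U : Set ℂ} (hU : IsOpen U) (h : ∀ z ∈ U, F z ∈ Ω)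
    {z : ℂ} (hz : z ∈ U) : d1 (d2 fun w => φ (F w)) z =
      ∑ k, ∑ l, dz (dzb φ l) k (F z) * deriv F z k * conj (deriv F z l) := by
  have e : (d2 fun w => φ (F w)) =ᶠ[𝓝 z] fun w => ∑ l, dzb φ l (F w) * conj (deriv F w l) := by
    filter_upwards [hU.mem_nhds hz] with w hw
    exact (chain (diffAt hΩ hφ (h w hw)) (hF w)).2
  have a1 : ∀ l, DifferentiableAt ℝ (dzb φ l) (F z) := fun l =>
    diffAt hΩ (dzb_smooth hΩ hφ l) (h z hz)
  have a2 : ∀ l, DifferentiableAt ℝ (fun w => dzb φ l (F w)) z := fun l =>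
    (a1 l).comp z ((hF z).restrictScalars ℝ)
  have a3 : ∀ l, DifferentiableAt ℝ (fun w => conj (deriv F w l)) z := fun l =>
    diff_conj ((pull_coord hF l z).restrictScalars ℝ)
  rw [d1_congr e, d1_sum _ fun l _ => (a2 l).fun_mul (a3 l), Finset.sum_comm]
  refine Finset.sum_congr rfl fun l _ => ?_
  rw [d1_mul (a2 l) (a3 l), d1_conj, d2_holo (pull_coord hF l z), (chain (a1 l) (hF z)).1,
    Finset.sum_mul]
  simp

lemma pull_alg (A B : Fin n → Fin n → ℂ) (C : M n) (u v : Fin n → ℂ) :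
    ∑ p, (∑ q, (∑ k, A q k * u k) * C q p) * ∑ l, B p l * v l =
      ∑ k, ∑ l, (∑ p, ∑ q, C q p * A q k * B p l) * u k * v l := by
  simp only [Finset.sum_mul, Finset.mul_sum]
  calc _ = ∑ p, ∑ q, ∑ k, ∑ l, C q p * A q k * B p l * u k * v l := by
        refine Finset.sum_congr rfl fun p _ => ?_
        rw [Finset.sum_comm]
        refine Finset.sum_congr rfl fun q _ => ?_
        rw [Finset.sum_comm]
        exact Finset.sum_congr rfl fun k _ => Finset.sum_congr rfl fun l _ => by ring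
    _ = ∑ p, ∑ k, ∑ l, ∑ q, C q p * A q k * B p l * u k * v l := by
        refine Finset.sum_congr rfl fun p _ => ?_
        rw [Finset.sum_comm]
        exact Finset.sum_congr rfl fun k _ => Finset.sum_comm
    _ = _ := by
        rw [Finset.sum_comm]
        exact Finset.sum_congr rfl fun k _ => Finset.sum_comm

theorem pull {Ω : Set (E n)} (hΩ : IsOpen Ω) {g : E n → M n} (hg : IsKaehler Ω g)
    (hb : NonnegBisec Ω g) {F : ℂ → E n} (hF : Differentiable ℂ F) {U : Set ℂ} (hU : IsOpen U)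
    (h : ∀ z ∈ U, F z ∈ Ω) : Sm U (fun z => g (F z)) ∧ Pos U (fun z => g (F z)) := by
  refine ⟨⟨fun i j => (hg.smooth i j).comp
    ((hF.contDiff (n := ∞)).restrict_scalars ℝ).contDiffOn h, fun z hz => hg.pos _ (h z hz)⟩,
    fun z hz y => ?_⟩
  have c := fun i j => chain (diffAt hΩ (hg.smooth i j) (h z hz)) (hF z)
  have e : ∀ i j, (-m1 (m2 fun z => g (F z)) z + m1 (fun z => g (F z)) z * (g (F z))⁻¹ *
      m2 (fun z => g (F z)) z) i j =
      ∑ k, ∑ l, curv g (F z) i j k l * deriv F z k * conj (deriv F z l) := fun i j => by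
    have e1 := pull_d12 hΩ (hg.smooth i j) hF hU h hz
    have e2 := pull_alg (fun q k => dz (fun x => g x i q) k (F z))
      (fun p l => dzb (fun x => g x p j) l (F z)) (g (F z))⁻¹ (fun k => deriv F z k)
      fun l => conj (deriv F z l)
    simp only [Matrix.add_apply, Matrix.neg_apply, Matrix.mul_apply, m1, m2, Matrix.of_apply,
      fun i j => (c i j).1, fun i j => (c i j).2, curv, add_mul, Finset.sum_add_distrib, neg_mul,
      Finset.sum_neg_distrib]
    rw [e1, e2]
  have k := hb (F z) (h z hz) (star y) fun k => deriv F z k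
  refine k.trans_eq (congrArg Complex.re ?_)
  simp only [hf, dotProduct, mulVec, e, Finset.mul_sum, Finset.sum_mul, Pi.star_apply]
  refine Finset.sum_congr rfl fun i _ => Finset.sum_congr rfl fun j _ =>
    Finset.sum_congr rfl fun k _ => Finset.sum_congr rfl fun l _ => ?_
  rw [starRingEnd_apply (star (y j)), star_star]
  ring

end Vale.Agent.P253
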