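import Vale.Agent.P253.Calc

/-!
A ray of finite length. Polar coordinates (`Complex.lintegral_comp_polarCoord_symm`, Tonelli
`lintegral_prod`, `ae_lt_top`): for some angle `θ`, `∫⁻ s in Ioo 0 ρ, s * (lam (s e) * s ^ (-δ)) < ⊤`.
Then `√lam ≤ lam * s ^ (1 - δ') + s ^ (δ' - 1)` and `s ^ (δ' - 1)` is integrable on `Ioo 0 ρ`
(`intervalIntegral.intervalIntegrable_rpow'`).
-/

namespace Vale.Agent.P253

open Complex Matrix Metric Set Filter Topology MeasureTheory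
open scoped ContDiff ComplexConjugate ComplexOrder ENNReal

variable {n : ℕ}

lemma ray_sqrt {l s δ : ℝ} (hl : 0 ≤ l) (hs : 0 < s) :
    √l ≤ s * (l * s ^ (-δ)) + s ^ (δ - 1) := by
  have h1 : 0 < s ^ (δ - 1) := Real.rpow_pos_of_pos hs _
  have h2 : 0 ≤ s * (l * s ^ (-δ)) := by positivity
  have h3 : s * (l * s ^ (-δ)) * s ^ (δ - 1) = l := by
    rw [Real.rpow_sub_one hs.ne', Real.rpow_neg hs.le]
    have := (Real.rpow_pos_of_pos hs δ).ne'
    field_simp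
  refine Real.sqrt_le_iff.2 ⟨by positivity, ?_⟩
  nlinarith [mul_nonneg h2 h1.le, sq_nonneg (s * (l * s ^ (-δ))), sq_nonneg (s ^ (δ - 1))]

lemma ray_angle {F : ℂ → ℝ≥0∞} (hF : Measurable F) (hi : ∫⁻ z, F z < ⊤) :
    ∃ e : ℂ, ‖e‖ = 1 ∧ ∫⁻ s in Ioi (0 : ℝ), ENNReal.ofReal s * F (s * e) < ⊤ := by
  have hm : Measurable fun p : ℝ × ℝ =>
      ENNReal.ofReal p.1 * F (p.1 * (Real.cos p.2 + Real.sin p.2 * I)) :=
    measurable_fst.ennreal_ofReal.mul (hF.comp (Continuous.measurable (by fun_prop)))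
  rw [← Complex.lintegral_comp_polarCoord_symm, polarCoord_target, Measure.volume_eq_prod,
    ← Measure.prod_restrict] at hi
  simp only [Complex.polarCoord_symm_apply, smul_eq_mul] at hi
  rw [lintegral_prod_symm _ hm.aemeasurable] at hi
  have hne : (ae (volume.restrict (Ioo (-Real.pi) Real.pi))).NeBot := by
    rw [ae_neBot, Ne, Measure.restrict_eq_zero, Real.volume_Ioo, ENNReal.ofReal_eq_zero, not_le]
    linarith [Real.pi_pos]
  obtain ⟨θ, hθ⟩ := (ae_lt_top hm.lintegral_prod_left' hi.ne).exists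
  refine ⟨Real.cos θ + Real.sin θ * I, ?_, hθ⟩
  rw [ofReal_cos, ofReal_sin]
  exact norm_cos_add_sin_mul_I θ

theorem ray {lam : ℂ → ℝ} {ρ δ : ℝ} (hρ : 0 < ρ) (hδ : 0 < δ) (hc : ContinuousOn lam (pd ρ))
    (h0 : ∀ z ∈ pd ρ, 0 ≤ lam z)
    (hi : ∫⁻ z in pd ρ, ENNReal.ofReal (lam z * ‖z‖ ^ (-δ)) < ⊤) :
    ∃ e : ℂ, ‖e‖ = 1 ∧ ∫⁻ s in Ioo (0 : ℝ) ρ, ENNReal.ofReal √(lam (s * e)) < ⊤ := by
  classical
  have hs := (pd_open ρ).measurableSet
  have h1 : ContinuousOn (fun z => ENNReal.ofReal (lam z * ‖z‖ ^ (-δ))) (pd ρ) :=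
    ENNReal.continuous_ofReal.comp_continuousOn (hc.mul (continuousOn_id.norm.rpow_const
      fun z hz => .inl (norm_ne_zero_iff.2 (mem_pd.1 hz).2)))
  have h2 : Measurable ((pd ρ).indicator fun z => ENNReal.ofReal (lam z * ‖z‖ ^ (-δ))) := by
    rw [← piecewise_eq_indicator]
    exact h1.measurable_piecewise continuousOn_const hs
  rw [← lintegral_indicator hs] at hi
  obtain ⟨e, he, h3⟩ := ray_angle h2 hi
  refine ⟨e, he, ?_⟩
  have h4 : ∫⁻ s in Ioo (0 : ℝ) ρ, ENNReal.ofReal (s ^ (δ - 1)) < ⊤ :=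
    ((intervalIntegral.intervalIntegrable_rpow' (a := 0) (b := ρ)
      (by linarith : -1 < δ - 1)).1.mono_set Ioo_subset_Ioc_self).lintegral_lt_top
  have h5 := ENNReal.add_lt_top.2
    ⟨(lintegral_mono_set (s := Ioo 0 ρ) Ioo_subset_Ioi_self).trans_lt h3, h4⟩
  rw [← lintegral_add_right _ (by fun_prop)] at h5
  refine (setLIntegral_mono' measurableSet_Ioo fun s hs => ?_).trans_lt h5
  have h6 : ‖(s : ℂ) * e‖ = s := by
    rw [norm_mul, he, mul_one, norm_real, Real.norm_of_nonneg hs.1.le]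
  have h7 : (s : ℂ) * e ∈ pd ρ :=
    mem_pd.2 ⟨h6.trans_lt hs.2, norm_pos_iff.1 (hs.1.trans_eq h6.symm)⟩
  rw [indicator_of_mem h7, h6, ← ENNReal.ofReal_mul hs.1.le]
  exact (ENNReal.ofReal_le_ofReal (ray_sqrt (h0 _ h7) hs.1)).trans ENNReal.ofReal_add_le

end Vale.Agent.P253
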