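import Vale.Agent.P253.Red1

/-!
A touching family. `Ωᶜ` is nonempty (otherwise `infDist = 0` and both sides vanish) and closed, so
`infDist > 0` on `Ω` and `u ζ = -log (infDist (z + ζ • a) Ωᶜ)` is continuous on the closed disc. Take
`q, ζ₀, ε` from `red1`, `ρ = (1 - ‖ζ₀‖) / 2`, a nearest point `p ∈ Ωᶜ` of `z + ζ₀ • a`
(`IsClosed.exists_infDist_eq_dist`), `η = p - (z + ζ₀ • a)`, `f ζ = z + (ζ₀ + ρ ζ) • a`,
`b ζ = exp (q ζ₀ - q (ζ₀ + ρ ζ)) • η`. Then `‖b ζ‖ = exp (-re q (ζ₀ + ρ ζ))` and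
`t ‖b ζ‖ < infDist (f ζ) Ωᶜ` if `t < 1` or `ζ ≠ 0` (`Metric.notMem_of_dist_lt_infDist`).
-/

namespace Vale.Agent.P253

open Complex Matrix Metric Set Filter Topology MeasureTheory
open scoped ContDiff ComplexConjugate ComplexOrder ENNReal

variable {n : ℕ}

theorem red {Ω : Set (E n)} (hΩ : IsOpen Ω) (h : ¬Pseudoconvex Ω) :
    ∃ f b : ℂ → E n, Touch Ω f b := by
  simp only [Pseudoconvex, not_forall, not_le] at h
  obtain ⟨z, a, hin, hlt⟩ := h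
  have hne : Ωᶜ.Nonempty := by
    refine nonempty_iff_ne_empty.2 fun e => ?_
    simp [e, Real.circleAverage_const] at hlt
  have pos : ∀ ζ : ℂ, ‖ζ‖ ≤ 1 → 0 < infDist (z + ζ • a) Ωᶜ := fun ζ hζ =>
    (hΩ.isClosed_compl.notMem_iff_infDist_pos hne).1 (not_not.2 (hin ζ hζ))
  obtain ⟨q, ζ₀, ε, hq, h0, hε, h1, h2⟩ := red1 (u := fun ζ => -Real.log (infDist (z + ζ • a) Ωᶜ))
    (((continuous_infDist_pt Ωᶜ).comp (by fun_prop)).continuousOn.log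
      fun ζ hζ => (pos ζ (mem_closedBall_zero_iff.1 hζ)).ne').neg (by simpa using hlt)
  obtain ⟨p, hp, h3⟩ := hΩ.isClosed_compl.exists_infDist_eq_dist hne (z + ζ₀ • a)
  obtain ⟨ρ, ρ0, hρ⟩ : ∃ ρ : ℝ, 0 < ρ ∧ ‖ζ₀‖ + ρ * 2 = 1 := ⟨(1 - ‖ζ₀‖) / 2, by linarith, by ring⟩
  have h4 : ‖p - (z + ζ₀ • a)‖ = Real.exp (-(q ζ₀).re) := by
    rw [← h1, neg_neg, Real.exp_log (pos ζ₀ h0.le), h3, dist_comm, dist_eq_norm]
  refine ⟨fun ζ => z + (ζ₀ + ρ * ζ) • a, fun ζ => cexp (q ζ₀ - q (ζ₀ + ρ * ζ)) • (p - (z + ζ₀ • a)),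
    by fun_prop, by fun_prop, fun t ht ζ hζ h5 => ?_, by simpa using hp⟩
  by_contra hc
  have n1 : ‖(ρ : ℂ) * ζ‖ = ρ * ‖ζ‖ := by rw [norm_mul, norm_real, Real.norm_of_nonneg ρ0.le]
  have h6 : ‖ζ₀ + ρ * ζ‖ ≤ 1 := (norm_add_le _ _).trans (by rw [n1]; nlinarith)
  have h7 := infDist_le_dist_of_mem (x := z + (ζ₀ + ρ * ζ) • a) (s := Ωᶜ) hc
  rw [dist_self_add_right, norm_smul, norm_smul, h4, norm_exp, ← Real.exp_add, norm_real,
    Real.norm_of_nonneg ht.1, sub_re, ← sub_eq_add_neg, sub_sub_cancel_left] at h7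
  have h8 := h2 _ h6
  rw [add_sub_cancel_left, n1, neg_le, Real.le_log_iff_exp_le (pos _ h6), neg_sub, sub_eq_add_neg,
    Real.exp_add] at h8
  have h9 := (Real.add_one_le_exp _).trans (le_of_mul_le_mul_right (h8.trans h7) (Real.exp_pos _))
  rcases h5 with h5 | h5
  · have : 0 ≤ ε * (ρ * ‖ζ‖) ^ 2 := by positivity
    linarith
  · have : 0 < ε * (ρ * ‖ζ‖) ^ 2 := by positivity
    linarith [ht.2]

end Vale.Agent.P253
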