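import Vale.Agent.P253.Calc

/-!
Failure of the mean value inequality gives a harmonic majorant touching at one interior point. Let
`4 η = u 0 - average`. Approximate `u` on the circle within `η` by `re p` for an entire `p`: the set of
continuous functions `re p` on the unit circle is dense (e.g. `span_fourier_closure_eq_top`, the real
part of `c * conj z ^ k` is that of `conj c * z ^ k`; or solve the Dirichlet problem with Mathlib's
Poisson integral if available; or `ContinuousMap.starSubalgebra_topologicalClosure_eq_top_of_separatesPoints`).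
`re (p 0)` is the average of `re p` (`DiffContOnCl.circleAverage` / `circleAverage_of_differentiable_on`). So
`u - re p + η ‖ζ‖ ^ 2` is `≤ 2 η` on the circle and `≥ 3 η` at `0`; let `ζ₀` be a maximum point, `M` the
maximum, `q ζ = p ζ + M - η (2 conj ζ₀ ζ - ‖ζ₀‖ ^ 2)`.
-/

namespace Vale.Agent.P253

open Complex Matrix Metric Set Filter Topology MeasureTheory
open scoped ContDiff ComplexConjugate ComplexOrder ENNReal

variable {n : ℕ}

theorem red1_span (G : C(AddCircle (1 : ℝ), ℂ))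
    (hG : G ∈ Submodule.span ℂ (range (fourier (T := (1 : ℝ))))) :
    ∃ p q : ℂ → ℂ, Differentiable ℂ p ∧ Differentiable ℂ q ∧
      ∀ x, G x = p (AddCircle.toCircle x : ℂ) + conj (q (AddCircle.toCircle x : ℂ)) := by
  induction hG using Submodule.span_induction with
  | mem f hf =>
    obtain ⟨k, rfl⟩ := hf
    rcases Int.eq_nat_or_neg k with ⟨m, rfl | rfl⟩
    · refine ⟨fun z => z ^ m, fun _ => 0, by fun_prop, by fun_prop, fun x => ?_⟩
      rw [fourier_apply, natCast_zsmul, AddCircle.toCircle_nsmul, Circle.coe_pow, map_zero,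
        add_zero]
    · refine ⟨fun _ => 0, fun z => z ^ m, by fun_prop, by fun_prop, fun x => ?_⟩
      rw [fourier_neg, fourier_apply, natCast_zsmul, AddCircle.toCircle_nsmul, Circle.coe_pow,
        zero_add]
  | zero => exact ⟨fun _ => 0, fun _ => 0, by fun_prop, by fun_prop, fun x => by simp⟩
  | add f g _ _ hf hg =>
    obtain ⟨p, q, hp, hq, e⟩ := hf
    obtain ⟨p', q', hp', hq', e'⟩ := hg
    refine ⟨fun z => p z + p' z, fun z => q z + q' z, by fun_prop, by fun_prop, fun x => ?_⟩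
    rw [ContinuousMap.add_apply, e, e', map_add]
    ring
  | smul c f _ hf =>
    obtain ⟨p, q, hp, hq, e⟩ := hf
    refine ⟨fun z => c * p z, fun z => conj c * q z, by fun_prop, by fun_prop, fun x => ?_⟩
    rw [ContinuousMap.smul_apply, e, map_mul, Complex.conj_conj, smul_eq_mul]
    ring

theorem red1_apx {u : ℂ → ℝ} (hu : ContinuousOn u (closedBall 0 1)) {η : ℝ} (hη : 0 < η) :
    ∃ p : ℂ → ℂ, Differentiable ℂ p ∧ ∀ ζ : ℂ, ‖ζ‖ = 1 → |u ζ - (p ζ).re| ≤ η := by
  have : Fact (0 < (1 : ℝ)) := ⟨one_pos⟩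
  have hc : Continuous fun x : AddCircle (1 : ℝ) => (AddCircle.toCircle x : ℂ) :=
    continuous_subtype_val.comp AddCircle.continuous_toCircle
  have hF : Continuous fun x : AddCircle (1 : ℝ) => (u (AddCircle.toCircle x : ℂ) : ℂ) := by
    refine Complex.continuous_ofReal.comp (hu.comp_continuous hc fun x => ?_)
    exact mem_closedBall_zero_iff.2 (Circle.norm_coe _).le
  let F : C(AddCircle (1 : ℝ), ℂ) := ⟨_, hF⟩
  have hmem : F ∈ closure
      ((Submodule.span ℂ (range (fourier (T := (1 : ℝ)))) : Submodule ℂ _) :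
        Set C(AddCircle (1 : ℝ), ℂ)) := by
    rw [← Submodule.topologicalClosure_coe, span_fourier_closure_eq_top]
    trivial
  obtain ⟨G, hG, hd⟩ := Metric.mem_closure_iff.1 hmem η hη
  obtain ⟨p, q, hp, hq, e⟩ := red1_span G hG
  refine ⟨fun z => p z + q z, by fun_prop, fun ζ hζ => ?_⟩
  obtain ⟨x, hx⟩ := (AddCircle.homeomorphCircle (one_ne_zero : (1 : ℝ) ≠ 0)).surjective
    ⟨ζ, by simp [Submonoid.unitSphere, hζ]⟩
  rw [AddCircle.homeomorphCircle_apply] at hx
  have hx' : (AddCircle.toCircle x : ℂ) = ζ := by rw [hx]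
  have h1 : dist (F x) (G x) ≤ η := (ContinuousMap.dist_apply_le_dist x).trans hd.le
  have h2 : F x = (u ζ : ℂ) := by
    change (u (AddCircle.toCircle x : ℂ) : ℂ) = _
    rw [hx']
  rw [h2, e, hx', dist_eq_norm] at h1
  refine le_trans (le_of_eq ?_) ((Complex.abs_re_le_norm _).trans h1)
  simp

theorem red1_avg {p : ℂ → ℂ} (hp : Differentiable ℂ p) :
    Real.circleAverage (fun z => (p z).re) 0 1 = (p 0).re := by
  have h1 : CircleIntegrable p 0 1 := hp.continuous.continuousOn.circleIntegrable'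
  have h2 := Complex.reCLM.circleAverage_comp_comm h1
  rw [hp.diffContOnCl.circleAverage] at h2
  exact h2

theorem red1 {u : ℂ → ℝ} (hu : ContinuousOn u (closedBall 0 1))
    (h : Real.circleAverage u 0 1 < u 0) : ∃ (q : ℂ → ℂ) (ζ₀ : ℂ) (ε : ℝ), Differentiable ℂ q ∧
      ‖ζ₀‖ < 1 ∧ 0 < ε ∧ u ζ₀ = (q ζ₀).re ∧
      ∀ ζ : ℂ, ‖ζ‖ ≤ 1 → u ζ ≤ (q ζ).re - ε * ‖ζ - ζ₀‖ ^ 2 := by
  obtain ⟨η, hη⟩ : ∃ η : ℝ, η = (u 0 - Real.circleAverage u 0 1) / 4 := ⟨_, rfl⟩
  have hη0 : 0 < η := by rw [hη]; linarith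
  obtain ⟨p, hp, hap⟩ := red1_apx hu hη0
  have hpc : Continuous fun z => (p z).re := Complex.continuous_re.comp hp.continuous
  have hui : CircleIntegrable u 0 1 :=
    (hu.mono sphere_subset_closedBall).circleIntegrable zero_le_one
  have hpi : CircleIntegrable (fun z => (p z).re) 0 1 := hpc.continuousOn.circleIntegrable'
  have h0 : (p 0).re - Real.circleAverage u 0 1 ≤ η := by
    rw [← red1_avg hp, ← Real.circleAverage_fun_sub hpi hui]
    refine Real.circleAverage_mono_on_of_le_circle (hpi.sub hui) fun x hx => ?_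
    have := abs_le.1 (hap x (by simpa using hx))
    linarith [this.1]
  have hvc : ContinuousOn (fun z : ℂ => u z - (p z).re + η * ‖z‖ ^ 2) (closedBall 0 1) :=
    (hu.sub hpc.continuousOn).add (by fun_prop)
  obtain ⟨ζ₀, hζ₀, hmax⟩ := (isCompact_closedBall (0 : ℂ) 1).exists_isMaxOn
    ⟨0, mem_closedBall_self zero_le_one⟩ hvc
  have hle : ∀ z : ℂ, ‖z‖ ≤ 1 →
      u z - (p z).re + η * ‖z‖ ^ 2 ≤ u ζ₀ - (p ζ₀).re + η * ‖ζ₀‖ ^ 2 := fun z hz =>
    hmax (mem_closedBall_zero_iff.2 hz)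
  have hlt : ‖ζ₀‖ < 1 := by
    refine lt_of_le_of_ne (mem_closedBall_zero_iff.1 hζ₀) fun he => ?_
    have h1 := hle 0 (by simp)
    have h2 := abs_le.1 (hap ζ₀ he)
    rw [he, norm_zero] at h1
    linarith [h2.2]
  obtain ⟨M, hM⟩ : ∃ M : ℝ, M = u ζ₀ - (p ζ₀).re + η * ‖ζ₀‖ ^ 2 := ⟨_, rfl⟩
  have hre : ∀ z : ℂ, (p z + (M : ℂ) - (η : ℂ) * (2 * conj ζ₀ * z - ((‖ζ₀‖ ^ 2 : ℝ) : ℂ))).re =
      (p z).re + M - η * ‖z‖ ^ 2 + η * ‖z - ζ₀‖ ^ 2 := by
    intro z
    simp only [Complex.sq_norm, Complex.normSq_apply, Complex.sub_re, Complex.add_re,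
      Complex.mul_re, Complex.mul_im, Complex.ofReal_re, Complex.ofReal_im, Complex.sub_im,
      Complex.conj_re, Complex.conj_im, Complex.re_ofNat, Complex.im_ofNat]
    ring
  refine ⟨fun z => p z + (M : ℂ) - (η : ℂ) * (2 * conj ζ₀ * z - ((‖ζ₀‖ ^ 2 : ℝ) : ℂ)), ζ₀, η,
    by fun_prop, hlt, hη0, ?_, fun ζ hζ => ?_⟩
  · rw [hre, sub_self, norm_zero, hM]
    ring
  · rw [hre]
    have := hle ζ hζ
    linarith

end Vale.Agent.P253
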