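import Vale.Agent.P253.Sq

/-!
Riesz representation. `A` from `exists_sqrt`. Test vectors form a submodule `V` of
`ℂ → Fin n → ℂ`. `T t = toLp (z ↦ toLp 2 (A (K z) *ᵥ vd2 t z))` in
`H = Lp (EuclideanSpace ℂ (Fin n)) 2 (volume.restrict U)` (continuous on `U`, compact support in `U`),
`T` is linear, `‖T t‖ ^ 2 = ∫ z in U, re (hf (K z) (vd2 t z) (vd2 t z))`. The functional
`ℓ t = -∫ z in U, f z ⬝ᵥ t z` satisfies `‖ℓ t‖ ≤ √C ‖T t‖`, so there is `y ∈ H`, `‖y‖ ≤ √C`,
`⟪y, T t⟫ = ℓ t` (factor through `range T`, `exists_extension_norm_eq`, `InnerProductSpace.toDual`;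
see also `Vale/Agent/P271A/Horm.lean`). Put `u z = star ((A (K z))ᴴ *ᵥ y z)`; then
`u z ⬝ᵥ s = ⟪y z, A s⟫` and `nsq (K z)⁻¹ (u z) = ‖y z‖ ^ 2` since `A * K⁻¹ * Aᴴ = 1`.
-/

namespace Vale.Agent.P253

open Complex Matrix Metric Set Filter Topology MeasureTheory
open scoped ContDiff ComplexConjugate ComplexOrder ENNReal

variable {n : ℕ}

lemma rz_abs {H : Type} [NormedAddCommGroup H] [InnerProductSpace ℂ H] [CompleteSpace H]
    (S : Submodule ℂ (H × ℂ)) {c : ℝ} (hc : 0 ≤ c) (h : ∀ p ∈ S, ‖p.2‖ ≤ c * ‖p.1‖) :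
    ∃ y : H, ‖y‖ ≤ c ∧ ∀ p ∈ S, inner ℂ y p.1 = p.2 := by
  set T : S →ₗ[ℂ] H := (LinearMap.fst ℂ H ℂ).comp S.subtype with hT
  set l : S →ₗ[ℂ] ℂ := (LinearMap.snd ℂ H ℂ).comp S.subtype with hl
  have hk : LinearMap.ker T ≤ LinearMap.ker l := fun p hp => by
    have h1 := h p p.2
    have h2 : (p : H × ℂ).1 = 0 := hp
    rw [h2, norm_zero, mul_zero] at h1
    exact norm_le_zero_iff.1 h1
  set g : LinearMap.range T →ₗ[ℂ] ℂ :=
    ((LinearMap.ker T).liftQ l hk).comp T.quotKerEquivRange.symm.toLinearMap with hg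
  have e : ∀ p : S, g ⟨T p, LinearMap.mem_range_self T p⟩ = l p := fun p => by
    simp only [hg, LinearMap.comp_apply, LinearEquiv.coe_coe,
      LinearMap.quotKerEquivRange_symm_apply_image, Submodule.mkQ_apply, Submodule.liftQ_apply]
  have hb : ∀ x, ‖g x‖ ≤ c * ‖x‖ := by
    rintro ⟨_, p, rfl⟩
    rw [e]
    exact h p p.2
  obtain ⟨G, G1, G2⟩ := exists_extension_norm_eq (LinearMap.range T) (g.mkContinuous c hb)
  refine ⟨(InnerProductSpace.toDual ℂ H).symm G, ?_, fun p hp => ?_⟩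
  · rw [LinearIsometryEquiv.norm_map, G2]
    exact g.mkContinuous_norm_le hc hb
  · rw [InnerProductSpace.toDual_symm_apply]
    exact (G1 ⟨T ⟨p, hp⟩, LinearMap.mem_range_self T _⟩).trans (e ⟨p, hp⟩)

lemma rz_sq {X : Type} [NormedAddCommGroup X] [InnerProductSpace ℂ X] {μ : Measure ℂ}
    (y : Lp X 2 μ) : ∫ a, ‖y a‖ ^ 2 ∂μ = ‖y‖ ^ 2 := by
  have h := L2.inner_def (𝕜 := ℂ) y y
  simp only [inner_self_eq_norm_sq_to_K] at h
  exact_mod_cast h.symm

lemma rz_int {X : Type} [NormedAddCommGroup X] {U : Set ℂ} (hU : IsOpen U) {t : ℂ → Fin n → ℂ}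
    (ht : Tst U t) {φ : ℂ → X} (hφ : ContinuousOn φ U) (h0 : ∀ z ∉ tsupport t, φ z = 0) :
    IntegrableOn φ U :=
  ((hφ.mono ht.sub).integrableOn_compact ht.cpt).of_forall_sdiff_eq_zero hU.measurableSet
    fun z hz => h0 z hz.2

lemma rz_vd2_cont {U : Set ℂ} {t : ℂ → Fin n → ℂ} (ht : Tst U t) : Continuous (vd2 t) :=
  continuous_pi fun i => continuousOn_univ.1
    (d2_smooth isOpen_univ (ht.smooth i).contDiffOn).continuousOn

lemma rz_vd2_zero {t : ℂ → Fin n → ℂ} {z : ℂ} (hz : z ∉ tsupport t) : vd2 t z = 0 := by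
  funext i
  have h : (fun w => t w i) =ᶠ[𝓝 z] fun _ => 0 :=
    (notMem_tsupport_iff_eventuallyEq.1 hz).mono fun w hw => congrFun hw i
  exact (d2_congr h).trans (d2_const 0)

lemma rz_add {U : Set ℂ} {s t : ℂ → Fin n → ℂ} (hs : Tst U s) (ht : Tst U t) :
    Tst U (s + t) ∧ ∀ z, vd2 (s + t) z = vd2 s z + vd2 t z :=
  ⟨⟨fun i => (hs.smooth i).add (ht.smooth i), hs.cpt.add ht.cpt,
    (tsupport_add s t).trans (union_subset hs.sub ht.sub)⟩, fun z => funext fun i =>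
      d2_add ((hs.smooth i).differentiable (by simp) z) ((ht.smooth i).differentiable (by simp) z)⟩

lemma rz_smul {U : Set ℂ} {t : ℂ → Fin n → ℂ} (ht : Tst U t) (c : ℂ) :
    Tst U (c • t) ∧ ∀ z, vd2 (c • t) z = c • vd2 t z := by
  have h : tsupport (c • t) ⊆ tsupport t := tsupport_smul_subset_right (fun _ => c) t
  refine ⟨⟨fun i => contDiff_const.mul (ht.smooth i),
    ht.cpt.of_isClosed_subset (isClosed_tsupport _) h, h.trans ht.sub⟩, fun z => funext fun i => ?_⟩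
  refine (d2_mul (differentiableAt_const c) ((ht.smooth i).differentiable (by simp) z)).trans ?_
  rw [d2_const, zero_mul, zero_add]
  rfl

lemma rz_zero (U : Set ℂ) : Tst U (0 : ℂ → Fin n → ℂ) :=
  ⟨fun _ => contDiff_const, HasCompactSupport.zero, by simp⟩

lemma rz_inner (x y : E n) : inner ℂ x y = star x.ofLp ⬝ᵥ y.ofLp := by
  rw [EuclideanSpace.inner_eq_star_dotProduct, dotProduct_comm]

lemma rz_norm (x : E n) : ‖x‖ ^ 2 = (star x.ofLp ⬝ᵥ x.ofLp).re := by
  rw [← rz_inner, ← inner_self_eq_norm_sq (𝕜 := ℂ)]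
  rfl

theorem riesz {U : Set ℂ} (hU : IsOpen U) {K : ℂ → M n} (h : Sm U K) {f : ℂ → Fin n → ℂ}
    (hf' : ContinuousOn f U) {C : ℝ} (hC : 0 ≤ C)
    (hb : ∀ t, Tst U t → ‖∫ z in U, f z ⬝ᵥ t z‖ ^ 2 ≤
      C * ∫ z in U, (hf (K z) (vd2 t z) (vd2 t z)).re) :
    ∃ u : ℂ → Fin n → ℂ, (∀ i, LocallyIntegrableOn (fun z => u z i) U) ∧
      ∫⁻ z in U, ENNReal.ofReal (nsq (K z)⁻¹ (u z)) ≤ ENNReal.ofReal C ∧
      ∀ t, Tst U t → ∫ z in U, u z ⬝ᵥ vd2 t z = -∫ z in U, f z ⬝ᵥ t z := by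
  obtain ⟨A, hA, hA'⟩ := exists_sqrt n
  have hK : ContinuousOn K U := continuousOn_pi.2 fun i => continuousOn_pi.2 fun j =>
    (h.smooth i j).continuousOn
  have hB : ContinuousOn (fun z => A (K z)) U := hA.comp hK fun z hz => h.pos z hz
  obtain ⟨F, hF⟩ : ∃ F : (ℂ → Fin n → ℂ) → ℂ → E n,
      ∀ t z, F t z = WithLp.toLp 2 (A (K z) *ᵥ vd2 t z) := ⟨_, fun _ _ => rfl⟩
  have F1 : ∀ t, Tst U t → ContinuousOn (F t) U := fun t ht => by
    rw [show F t = _ from funext (hF t)]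
    exact (PiLp.continuous_toLp 2 _).comp_continuousOn
      ((continuous_fst.matrix_mulVec continuous_snd).comp_continuousOn
        (hB.prodMk (rz_vd2_cont ht).continuousOn))
  have F2 : ∀ t, Tst U t → MemLp (F t) 2 (volume.restrict U) := fun t ht =>
    (memLp_two_iff_integrable_sq_norm ((F1 t ht).aestronglyMeasurable hU.measurableSet)).2
      (rz_int hU ht ((F1 t ht).norm.pow 2) fun z hz => by simp [hF, rz_vd2_zero hz])
  have F3 : ∀ t, ∀ z ∈ U, ‖F t z‖ ^ 2 = (hf (K z) (vd2 t z) (vd2 t z)).re := fun t z hz => by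
    rw [rz_norm, hF, hf, star_mulVec, ← dotProduct_mulVec, mulVec_mulVec, hA' _ (h.pos z hz)]
  have I1 : ∀ t, Tst U t → IntegrableOn (fun z => f z ⬝ᵥ t z) U := fun t ht =>
    rz_int hU ht ((continuous_fst.dotProduct continuous_snd).comp_continuousOn
      (hf'.prodMk (continuous_pi fun i => (ht.smooth i).continuous).continuousOn)) fun z hz => by
        rw [image_eq_zero_of_notMem_tsupport hz, dotProduct_zero]
  let S : Submodule ℂ (Lp (E n) 2 (volume.restrict U) × ℂ) :=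
    { carrier := {p | ∃ t, Tst U t ∧ p.1 =ᵐ[volume.restrict U] F t ∧
        p.2 = -∫ z in U, f z ⬝ᵥ t z}
      add_mem' := by
        rintro p q ⟨s, hs, s1, s2⟩ ⟨t, ht, t1, t2⟩
        refine ⟨s + t, (rz_add hs ht).1, ?_, ?_⟩
        · filter_upwards [Lp.coeFn_add p.1 q.1, s1, t1] with z z1 z2 z3
          rw [Prod.fst_add, z1, Pi.add_apply, z2, z3, hF, hF, hF, (rz_add hs ht).2, mulVec_add,
            WithLp.toLp_add]
        · rw [Prod.snd_add, s2, t2, ← neg_add, ← integral_add (I1 s hs) (I1 t ht)]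
          simp only [Pi.add_apply, dotProduct_add]
      zero_mem' := by
        refine ⟨0, rz_zero U, ?_, by simp⟩
        filter_upwards [Lp.coeFn_zero (E n) 2 (volume.restrict U)] with z z1
        rw [Prod.fst_zero, z1, hF, rz_vd2_zero (by simp)]
        simp
      smul_mem' := by
        rintro c p ⟨t, ht, t1, t2⟩
        refine ⟨c • t, (rz_smul ht c).1, ?_, ?_⟩
        · filter_upwards [Lp.coeFn_smul c p.1, t1] with z z1 z2
          rw [Prod.smul_fst, z1, Pi.smul_apply, z2, hF, hF, (rz_smul ht c).2, mulVec_smul,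
            WithLp.toLp_smul]
        · rw [Prod.smul_snd, t2, smul_neg, ← integral_smul]
          simp only [Pi.smul_apply, dotProduct_smul] }
  obtain ⟨y, y1, y2⟩ := rz_abs S (Real.sqrt_nonneg C) (by
    rintro p ⟨t, ht, t1, t2⟩
    have e : ∫ z in U, (hf (K z) (vd2 t z) (vd2 t z)).re = ‖p.1‖ ^ 2 := by
      rw [← rz_sq]
      refine integral_congr_ae ?_
      filter_upwards [t1, ae_restrict_mem hU.measurableSet] with z z1 z2
      rw [z1, F3 t z z2]
    have h1 := hb t ht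
    rw [e] at h1
    rw [t2, norm_neg]
    refine (pow_le_pow_iff_left₀ (norm_nonneg _) (by positivity) two_ne_zero).1 ?_
    rwa [mul_pow, Real.sq_sqrt hC])
  refine ⟨fun z => star ((A (K z))ᴴ *ᵥ (y z).ofLp), fun i => ?_, ?_, fun t ht => ?_⟩
  · refine (locallyIntegrableOn_iff hU.isLocallyClosed).2 fun k hk hc => ?_
    have h1 : IntegrableOn y k := by
      have h2 := (Lp.memLp y).restrict k
      rw [Measure.restrict_restrict_of_subset hk] at h2
      have : IsFiniteMeasure (volume.restrict k) := ⟨by simpa using hc.measure_lt_top⟩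
      exact h2.integrable one_le_two
    have e : (fun z => star ((A (K z))ᴴ *ᵥ (y z).ofLp) i) =
        fun z => ∑ j, A (K z) j i * conj (y z j) := by
      funext z
      simp [mulVec, dotProduct, mul_comm]
    rw [e]
    refine integrable_finsetSum _ fun j _ => IntegrableOn.continuousOn_mul
      ((continuousOn_pi.1 (continuousOn_pi.1 hB j) i).mono hk) ?_ hc
    exact (conjCLE : ℂ →L[ℝ] ℂ).integrable_comp
      ((EuclideanSpace.proj j : E n →L[ℂ] ℂ).integrable_comp h1)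
  · have e : ∀ z ∈ U, ENNReal.ofReal (nsq (K z)⁻¹ (star ((A (K z))ᴴ *ᵥ (y z).ofLp))) =
        ENNReal.ofReal (‖y z‖ ^ 2) := fun z hz => by
      have h1 : (K z)⁻¹ * (A (K z))ᴴ * A (K z) = 1 := by
        rw [Matrix.mul_assoc, hA' _ (h.pos z hz)]
        exact nonsing_inv_mul _ ((isUnit_iff_isUnit_det _).1 (h.pos z hz).isUnit)
      rw [nsq_eq, star_star, hf, star_mulVec, conjTranspose_conjTranspose, ← dotProduct_mulVec,
        mulVec_mulVec, mulVec_mulVec, Matrix.mul_assoc, mul_eq_one_comm.1 h1, one_mulVec, rz_norm]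
    rw [setLIntegral_congr_fun hU.measurableSet e, ← ofReal_integral_eq_lintegral_ofReal
      ((memLp_two_iff_integrable_sq_norm (Lp.aestronglyMeasurable y)).1 (Lp.memLp y))
      (Eventually.of_forall fun z => sq_nonneg _), rz_sq]
    refine ENNReal.ofReal_le_ofReal ?_
    rw [← Real.sq_sqrt hC]
    exact pow_le_pow_left₀ (norm_nonneg _) y1 2
  · have h1 := y2 ((F2 t ht).toLp, -∫ z in U, f z ⬝ᵥ t z) ⟨t, ht, (F2 t ht).coeFn_toLp, rfl⟩
    refine Eq.trans ?_ h1
    rw [L2.inner_def]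
    refine integral_congr_ae ?_
    filter_upwards [(F2 t ht).coeFn_toLp] with z z1
    rw [z1, rz_inner, hF, star_mulVec, conjTranspose_conjTranspose, ← dotProduct_mulVec]

end Vale.Agent.P253
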