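import Mathlib

/-! Kaehler metrics on open subsets of complex Euclidean space. -/

namespace Vale.Agent.P253

open Complex Filter Topology
open scoped ENNReal ContDiff ComplexOrder

/-- Complex Euclidean space. -/
abbrev E (n : ℕ) := EuclideanSpace ℂ (Fin n)

variable {n : ℕ}

/-- The Wirtinger derivative `∂ f / ∂ z_k`. -/
noncomputable def dz (f : E n → ℂ) (k : Fin n) (x : E n) : ℂ :=
  (fderiv ℝ f x (EuclideanSpace.single k 1) - I * fderiv ℝ f x (EuclideanSpace.single k I)) / 2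

/-- The Wirtinger derivative `∂ f / ∂ conj z_k`. -/
noncomputable def dzb (f : E n → ℂ) (k : Fin n) (x : E n) : ℂ :=
  (fderiv ℝ f x (EuclideanSpace.single k 1) + I * fderiv ℝ f x (EuclideanSpace.single k I)) / 2

/-- `g x i j = g_{i \bar j}(x)` is a smooth Kaehler metric on `Ω`. -/
structure IsKaehler (Ω : Set (E n)) (g : E n → Matrix (Fin n) (Fin n) ℂ) : Prop where
  smooth : ∀ i j, ContDiffOn ℝ ∞ (fun x => g x i j) Ω
  pos : ∀ x ∈ Ω, (g x).PosDef
  closed : ∀ x ∈ Ω, ∀ i j k, dz (fun y => g y i j) k x = dz (fun y => g y k j) i x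

/-- The curvature tensor `R_{i \bar j k \bar l}`. -/
noncomputable def curv (g : E n → Matrix (Fin n) (Fin n) ℂ) (x : E n) (i j k l : Fin n) : ℂ :=
  -dz (dzb (fun y => g y i j) l) k x +
    ∑ p, ∑ q, (g x)⁻¹ q p * dz (fun y => g y i q) k x * dzb (fun y => g y p j) l x

/-- Nonnegative holomorphic bisectional curvature. -/
def NonnegBisec (Ω : Set (E n)) (g : E n → Matrix (Fin n) (Fin n) ℂ) : Prop :=
  ∀ x ∈ Ω, ∀ X Y : Fin n → ℂ, 0 ≤ (∑ i, ∑ j, ∑ k, ∑ l,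
    curv g x i j k l * X i * (starRingEnd ℂ) (X j) * Y k * (starRingEnd ℂ) (Y l)).re

/-- The squared length of the vector `v` for the Hermitian matrix `G`. -/
noncomputable def nsq (G : Matrix (Fin n) (Fin n) ℂ) (v : Fin n → ℂ) : ℝ :=
  (∑ i, ∑ j, G i j * v i * (starRingEnd ℂ) (v j)).re

/-- The length of the path `γ` on `[0, 1]`. -/
noncomputable def len (g : E n → Matrix (Fin n) (Fin n) ℂ) (γ : ℝ → E n) : ℝ≥0∞ :=
  ∫⁻ t in Set.Icc (0 : ℝ) 1, ENNReal.ofReal √(nsq (g (γ t)) fun i => deriv γ t i)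

/-- The distance of the metric: the infimum of the lengths of `C¹` paths in `Ω`. -/
noncomputable def gdist (Ω : Set (E n)) (g : E n → Matrix (Fin n) (Fin n) ℂ) (x y : E n) : ℝ≥0∞ :=
  ⨅ (γ : ℝ → E n) (_ : ContDiff ℝ 1 γ) (_ : ∀ t ∈ Set.Icc (0 : ℝ) 1, γ t ∈ Ω) (_ : γ 0 = x)
    (_ : γ 1 = y), len g γ

/-- Every Cauchy sequence of the metric converges to a point of `Ω`. -/
def IsCompleteM (Ω : Set (E n)) (g : E n → Matrix (Fin n) (Fin n) ℂ) : Prop :=
  ∀ x : ℕ → E n, (∀ k, x k ∈ Ω) →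
    (∀ ε : ℝ≥0∞, 0 < ε → ∃ N, ∀ k ≥ N, ∀ l ≥ N, gdist Ω g (x k) (x l) < ε) →
      ∃ p ∈ Ω, Tendsto x atTop (𝓝 p)

/-- Pseudoconvexity: `-log` of the distance to the complement satisfies the sub-mean value
inequality on every closed affine disc in `Ω`, that is, it is plurisubharmonic. -/
def Pseudoconvex (Ω : Set (E n)) : Prop :=
  ∀ z a : E n, (∀ ζ : ℂ, ‖ζ‖ ≤ 1 → z + ζ • a ∈ Ω) →
    -Real.log (Metric.infDist z Ωᶜ) ≤
      Real.circleAverage (fun ζ => -Real.log (Metric.infDist (z + ζ • a) Ωᶜ)) 0 1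

end Vale.Agent.P253
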