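import Vale.Agent.P253.Calc

/-!
Scalar weights. Put `e w = exp (φ w)` (as `Complex.exp (φ w : ℂ)`), `p = d1 φ z`, `d2 φ z = conj p`
(`d2_conj`, `φ` real). `d1 e = e * p`, `d2 e = e * conj p` (chain rule for `fderiv ℝ`). Then
`m1 (e K) = e (m1 K + p K)`, `m2 (e K) = e (m2 K + conj p K)` on `U`,
`m1 (m2 (e K)) = e (m1 (m2 K) + conj p m1 K + p m2 K + (d1 (d2 φ) + p conj p) K)` and
`blk (e K) z t s = e * (blk K z t (s + p • t) + re (d1 (d2 φ) z * hf K t t))`; `hf K t t` is real.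
-/

namespace Vale.Agent.P253

open Complex Matrix Metric Set Filter Topology MeasureTheory
open scoped ContDiff ComplexConjugate ComplexOrder ENNReal

variable {n : ℕ}

theorem wt_one {ψ k : ℂ → ℂ} {z : ℂ} (hψ : DifferentiableAt ℝ ψ z) (hk : DifferentiableAt ℝ k z) :
    d1 (fun w => cexp (ψ w) * k w) z = cexp (ψ z) * (d1 k z + d1 ψ z * k z) ∧
      d2 (fun w => cexp (ψ w) * k w) z = cexp (ψ z) * (d2 k z + d2 ψ z * k z) := by
  have h := hψ.hasFDerivAt.cexp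
  have a1 : d1 (fun w => cexp (ψ w)) z = cexp (ψ z) * d1 ψ z := by
    simp only [d1, h.fderiv, ContinuousLinearMap.smul_apply, smul_eq_mul]
    ring
  have a2 : d2 (fun w => cexp (ψ w)) z = cexp (ψ z) * d2 ψ z := by
    simp only [d2, h.fderiv, ContinuousLinearMap.smul_apply, smul_eq_mul]
    ring
  rw [d1_mul h.differentiableAt hk, d2_mul h.differentiableAt hk, a1, a2]
  constructor <;> ring

theorem wt_two {U : Set ℂ} (hU : IsOpen U) {ψ k : ℂ → ℂ} (hψ : ContDiffOn ℝ ∞ ψ U)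
    (hk : ContDiffOn ℝ ∞ k U) {z : ℂ} (hz : z ∈ U) :
    d1 (d2 fun w => cexp (ψ w) * k w) z = cexp (ψ z) * (d1 (d2 k) z + d1 ψ z * d2 k z +
      d2 ψ z * d1 k z + (d1 (d2 ψ) z + d1 ψ z * d2 ψ z) * k z) := by
  have e : (d2 fun w => cexp (ψ w) * k w) =ᶠ[𝓝 z] fun w => cexp (ψ w) * (d2 k w + d2 ψ w * k w) := by
    filter_upwards [hU.mem_nhds hz] with w hw
    exact (wt_one (diffAt hU hψ hw) (diffAt hU hk hw)).2
  have a1 := diffAt hU (d2_smooth hU hk) hz
  have a2 := diffAt hU (d2_smooth hU hψ) hz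
  have a3 := diffAt hU hk hz
  rw [d1_congr e, (wt_one (k := fun w => d2 k w + d2 ψ w * k w) (diffAt hU hψ hz)
    (a1.add (a2.mul a3))).1, d1_add (g := fun w => d2 ψ w * k w) a1 (a2.mul a3), d1_mul a2 a3]
  ring

theorem neg_wt {U : Set ℂ} (hU : IsOpen U) {K : ℂ → M n} (h : Sm U K) (hn : Neg U K fun _ => 0)
    {φ : ℂ → ℝ} (hφ : ContDiffOn ℝ ∞ φ U) :
    Sm U (fun z => (Real.exp (φ z) : ℂ) • K z) ∧
      Neg U (fun z => (Real.exp (φ z) : ℂ) • K z) fun z => (d1 (d2 fun w => (φ w : ℂ)) z).re := by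
  set ψ : ℂ → ℂ := fun w => (φ w : ℂ) with hψ
  have h1 : ContDiffOn ℝ ∞ ψ U := ofRealCLM.contDiff.comp_contDiffOn hφ
  have e0 : ∀ i j, (fun w => ((Real.exp (φ w) : ℂ) • K w) i j) = fun w => cexp (ψ w) * K w i j :=
    fun i j => funext fun w => by simp [hψ]
  refine ⟨⟨fun i j => ?_, fun z hz => (h.pos z hz).smul ?_⟩, fun z hz t s => ?_⟩
  · rw [e0]
    exact h1.cexp.mul (h.smooth i j)
  · exact_mod_cast Real.exp_pos (φ z)
  have hq : d2 ψ z = conj (d1 ψ z) := by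
    rw [← d2_conj]
    simp [hψ]
  have a := fun i j => wt_one (diffAt hU h1 hz) (diffAt hU (h.smooth i j) hz)
  have e1 : m1 (fun w => (Real.exp (φ w) : ℂ) • K w) z = cexp (ψ z) • (m1 K z + d1 ψ z • K z) := by
    ext i j
    rw [m1, Matrix.of_apply, e0, (a i j).1]
    rfl
  have e2 : m2 (fun w => (Real.exp (φ w) : ℂ) • K w) z = cexp (ψ z) • (m2 K z + d2 ψ z • K z) := by
    ext i j
    rw [m2, Matrix.of_apply, e0, (a i j).2]
    rfl
  have e3 : m1 (m2 fun w => (Real.exp (φ w) : ℂ) • K w) z = cexp (ψ z) • (m1 (m2 K) z +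
      d1 ψ z • m2 K z + d2 ψ z • m1 K z + (d1 (d2 ψ) z + d1 ψ z * d2 ψ z) • K z) := by
    ext i j
    have e : (fun w => m2 (fun w => (Real.exp (φ w) : ℂ) • K w) w i j) =
        d2 fun w => cexp (ψ w) * K w i j := funext fun w => by rw [m2, Matrix.of_apply, e0]
    rw [m1, Matrix.of_apply, e, wt_two hU h1 (h.smooth i j) hz]
    rfl
  have e4 : cexp (ψ z) = (Real.exp (φ z) : ℂ) := (ofReal_exp _).symm
  have e5 : blk (fun w => (Real.exp (φ w) : ℂ) • K w) z t s = Real.exp (φ z) *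
      (blk K z t (s + d1 ψ z • t) + (d1 (d2 ψ) z * hf (K z) t t).re) := by
    rw [blk, blk, ← add_re, ← re_ofReal_mul, e1, e2, e3, e4, hq]
    congr 1
    simp only [hf, smul_mulVec, add_mulVec, mulVec_add, mulVec_smul, dotProduct_add,
      dotProduct_smul, add_dotProduct, smul_dotProduct, star_add, star_smul, smul_eq_mul,
      RCLike.star_def]
    ring
  have e6 : (hf ((Real.exp (φ z) : ℂ) • K z) t t).re = Real.exp (φ z) * (hf (K z) t t).re := by
    rw [← re_ofReal_mul]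
    simp only [hf, smul_mulVec, dotProduct_smul, smul_eq_mul]
  have e7 : (hf (K z) t t).im = 0 :=
    ((h.pos z hz).posSemidef.dotProduct_mulVec_nonneg t).2.symm
  have h2 := hn z hz t (s + d1 ψ z • t)
  rw [zero_mul] at h2
  rw [e5, e6, mul_re, e7, mul_zero, sub_zero]
  nlinarith [mul_nonneg (Real.exp_pos (φ z)).le h2]

end Vale.Agent.P253
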